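import Vale.Agent.P207.N3.H732.LeafA

/-!
# P207, dimension 3, P2-L: the continuous transfer function

`exists_r`: if `ψ` is an integrable transfer function of `w - h` on the compact quotient `Y`, then
there is a continuous function `r` on the space `X` of frames with
`r (φ t x) - r x = h t - ∫₀ᵗ w (π (φ s x)) ds` for all `t` and `x`.
-/

open Set Filter Topology Metric MeasureTheory

noncomputable section

namespace Vale.Agent.P207.N3.H732

variable {Γ X B : Type} [Group Γ] [MetricSpace X] [ProperSpace X] [MulAction Γ X]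
  [IsIsometricSMul Γ X] [TopologicalSpace B] [CompactSpace B] [T2Space B] [MulAction Γ B]
  [ContinuousConstSMul Γ B]

/-- The factor map from the frames of the universal cover to the compact quotient. -/
structure Factor {Y : Type} [TopologicalSpace Y] (L : Leaf Γ X B) (ϕ : ℝ → Y → Y) (π : X → Y) :
    Prop where
  flow : CFlow ϕ
  cont : Continuous π
  smul : ∀ (g : Γ) x, π (g • x) = π x
  rot : ∀ a x, π (L.rot a x) = π x
  φ : ∀ t x, π (L.φ t x) = ϕ t (π x)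

/-- Absolute continuity, in the form used here: `ν₀` is a measure on the boundary such that
Liouville null sets of geodesics are `ν₀ × ν₀` null (in iterated form). -/
structure HopfAC {Y : Type} [TopologicalSpace Y] [MeasurableSpace Y] [MeasurableSpace B]
    (L : Leaf Γ X B) (ϕ : ℝ → Y → Y) (π : X → Y) (m : Measure Y) (ν₀ : Measure B) : Prop where
  pos : ∀ U : Set B, IsOpen U → U.Nonempty → ν₀ U ≠ 0
  qi : ∀ g : Γ, (ν₀.map fun ξ => g • ξ) ≪ ν₀
  hopf₁ : ∀ G : Set Y, MeasurableSet G → (∀ t, ∀ v ∈ G, ϕ t v ∈ G) → (∀ᵐ v ∂m, v ∈ G) →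
    ∀ᵐ ξ ∂ν₀, ∀ᵐ η ∂ν₀, ∀ x, L.em x = ξ → L.ep x = η → π x ∈ G
  hopf₂ : ∀ G : Set Y, MeasurableSet G → (∀ t, ∀ v ∈ G, ϕ t v ∈ G) → (∀ᵐ v ∂m, v ∈ G) →
    ∀ᵐ η ∂ν₀, ∀ᵐ ξ ∂ν₀, ∀ x, L.em x = ξ → L.ep x = η → π x ∈ G

/-- The version with the product measure. -/
theorem HopfAC.of_prod {Y : Type} [TopologicalSpace Y] [MeasurableSpace Y] [MeasurableSpace B]
    {L : Leaf Γ X B} {ϕ : ℝ → Y → Y} {π : X → Y} {m : Measure Y} {ν₀ : Measure B}
    [IsFiniteMeasure ν₀] (pos : ∀ U : Set B, IsOpen U → U.Nonempty → ν₀ U ≠ 0)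
    (qi : ∀ g : Γ, (ν₀.map fun ξ => g • ξ) ≪ ν₀)
    (hopf : ∀ G : Set Y, MeasurableSet G → (∀ t, ∀ v ∈ G, ϕ t v ∈ G) → (∀ᵐ v ∂m, v ∈ G) →
      ∀ᵐ p ∂(ν₀.prod ν₀), ∀ x, L.em x = p.1 → L.ep x = p.2 → π x ∈ G) :
    HopfAC L ϕ π m ν₀ where
  pos := pos
  qi := qi
  hopf₁ G hG hφ hae := Measure.ae_ae_of_ae_prod (hopf G hG hφ hae)
  hopf₂ G hG hφ hae := by
    have h1 : ∀ᵐ p ∂(ν₀.prod ν₀), ∀ x, L.em x = p.2 → L.ep x = p.1 → π x ∈ G :=
      (Measure.measurePreserving_swap (μ := ν₀) (ν := ν₀)).quasiMeasurePreserving.ae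
        (hopf G hG hφ hae)
    exact Measure.ae_ae_of_ae_prod h1

section UAsym

variable {Y : Type} [TopologicalSpace Y] {L : Leaf Γ X B} {ϕ : ℝ → Y → Y} {π : X → Y}

/-- pairs which are exponentially asymptotic in the future -/
def Rp (L : Leaf Γ X B) (π : X → Y) (k : ℕ) : Set (Y × Y) :=
  {p | ∃ x x', π x = p.1 ∧ π x' = p.2 ∧
    ∀ t ≥ 0, dist (L.φ t x) (L.φ t x') ≤ k * Real.exp (-L.χ * t)}

/-- pairs which are exponentially asymptotic in the past -/
def Rm (L : Leaf Γ X B) (π : X → Y) (k : ℕ) : Set (Y × Y) :=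
  {p | ∃ x x', π (L.flip x) = p.1 ∧ π (L.flip x') = p.2 ∧
    ∀ t ≥ 0, dist (L.φ t x) (L.φ t x') ≤ k * Real.exp (-L.χ * t)}

theorem ev_small (L : Leaf Γ X B) (k : ℕ) {δ : ℝ} (hδ : 0 < δ) :
    ∃ N : ℝ, 0 ≤ N ∧ ∀ t ≥ N, k * Real.exp (-L.χ * t) < δ := by
  have h1 : Tendsto (fun t : ℝ => k * Real.exp (-L.χ * t)) atTop (𝓝 0) := by
    have h2 : Tendsto (fun t : ℝ => Real.exp (-L.χ * t)) atTop (𝓝 0) := by
      refine Real.tendsto_exp_atBot.comp ?_
      exact tendsto_id.const_mul_atTop_of_neg (by linarith [L.χ_pos])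
    simpa using h2.const_mul (k : ℝ)
  obtain ⟨N, hN⟩ := eventually_atTop.1 (h1.eventually (gt_mem_nhds hδ))
  exact ⟨max N 0, le_max_right _ _, fun t ht => hN t ((le_max_left _ _).trans ht)⟩

theorem ua_p (hπ : Factor L ϕ π) (k : ℕ) : UA ϕ (Rp L π k) := by
  intro f hf ε hε
  obtain ⟨δ, hδ, h⟩ := unif L (F := fun x => f (π x)) (hf.comp hπ.cont)
    (fun g x => by rw [hπ.smul]) hε
  obtain ⟨N, hN0, hN⟩ := ev_small L k hδ
  refine ⟨N, fun t ht p hp => ?_⟩
  obtain ⟨x, x', h1, h2, h3⟩ := hp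
  rw [← h1, ← h2, ← hπ.φ, ← hπ.φ]
  exact (h _ _ ((h3 t (hN0.trans ht)).trans_lt (hN t ht))).le

theorem ua_m (hπ : Factor L ϕ π) (k : ℕ) : UA (fun t => ϕ (-t)) (Rm L π k) := by
  intro f hf ε hε
  obtain ⟨δ, hδ, h⟩ := unif L (F := fun x => f (π (L.flip x)))
    (hf.comp (hπ.cont.comp L.flip_cont)) (fun g x => by rw [L.flip_smul, hπ.smul]) hε
  obtain ⟨N, hN0, hN⟩ := ev_small L k hδ
  refine ⟨N, fun t ht p hp => ?_⟩
  obtain ⟨x, x', h1, h2, h3⟩ := hp
  rw [← h1, ← h2]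
  have h4 : ∀ y, ϕ (-t) (π (L.flip y)) = π (L.flip (L.φ t y)) := fun y => by
    rw [L.flip_φ, hπ.φ]
  simp only [h4]
  exact (h _ _ ((h3 t (hN0.trans ht)).trans_lt (hN t ht))).le

end UAsym

section Dense

variable [MeasurableSpace B] {ν₀ : Measure B}

/-- A property of almost all pairs of boundary points holds on a dense set of frames. -/
theorem dense_of_ae (L : Leaf Γ X B) (hpos : ∀ U : Set B, IsOpen U → U.Nonempty → ν₀ U ≠ 0)
    {Q : B × B → Prop} (hQ : ∀ᵐ ξ ∂ν₀, ∀ᵐ η ∂ν₀, Q (ξ, η)) :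
    Dense {x | Q (L.em x, L.ep x)} := by
  rw [dense_iff_inter_open]
  rintro W hW ⟨x, hx⟩
  obtain ⟨O, hO, hxO, h⟩ := exists_nhds_pair L hW hx
  obtain ⟨U, V, hU, hV, hxU, hxV, hUV⟩ := isOpen_prod_iff.1 hO _ _ hxO
  obtain ⟨ξ, hξ1, hξ2⟩ := (frequently_ae_mem_iff.2 (hpos U hU ⟨_, hxU⟩)).and_eventually hQ |>.exists
  obtain ⟨η, hη1, hη2⟩ := (frequently_ae_mem_iff.2 (hpos V hV ⟨_, hxV⟩)).and_eventually hξ2 |>.exists
  obtain ⟨y, hy, hy1, hy2⟩ := h (ξ, η) (hUV ⟨hξ1, hη1⟩)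
  refine ⟨y, hy, ?_⟩
  change Q (L.em y, L.ep y)
  rwa [hy1, hy2]

end Dense

omit [ProperSpace X] in
/-- Two functions which are continuous on an open set and agree on a dense set agree. -/
theorem eqOn_of_dense {V D : Set X} (hV : IsOpen V) (hD : Dense D) {f g : X → ℝ}
    (hf : ContinuousOn f V) (hg : ContinuousOn g V) (h : ∀ x ∈ V, x ∈ D → f x = g x) :
    ∀ x ∈ V, f x = g x := by
  intro x hx
  have h1 : x ∈ closure (V ∩ D) := hD.open_subset_closure_inter hV hx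
  rw [mem_closure_iff_frequently] at h1
  have h2 : Tendsto (fun y => f y - g y) (𝓝 x) (𝓝 (f x - g x)) :=
    (hf.continuousAt (hV.mem_nhds hx)).sub (hg.continuousAt (hV.mem_nhds hx))
  have h3 : ∃ᶠ y in 𝓝 x, f y - g y ∈ ({0} : Set ℝ) := h1.mono fun y hy => by
    simp [h y hy.1 hy.2]
  have h4 := isClosed_singleton.mem_of_frequently_of_tendsto h3 h2
  exact sub_eq_zero.1 h4

variable {Y : Type} [TopologicalSpace Y] [CompactSpace Y] [T2Space Y] [MeasurableSpace Y]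
  [BorelSpace Y] {m : Measure Y} [IsProbabilityMeasure m] [MeasurableSpace B] [BorelSpace B]
  {ν₀ : Measure B}

/-- **P2-L.** The continuous transfer function. -/
theorem exists_r (L : Leaf Γ X B) {ϕ : ℝ → Y → Y} {π : X → Y} (hπ : Factor L ϕ π)
    (hm : ∀ t, MeasurePreserving (ϕ t) m m) [m.WeaklyRegular] {w : Y → ℝ} (hw : Continuous w)
    (hW : Hold fun x => w (π x)) (hW' : Hold fun x => w (π (L.flip x))) (h : ℝ)
    {ψ : Y → ℝ} (hψm : Measurable ψ) (hψI : Integrable ψ m)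
    (hψ : ∀ T, ∀ᵐ v ∂m, ψ (ϕ T v) - ψ v = ∫ s in (0 : ℝ)..T, (w (ϕ s v) - h))
    (hAC : HopfAC L ϕ π m ν₀) :
    ∃ r : X → ℝ, Continuous r ∧ (∀ (g : Γ) x, r (g • x) = r x) ∧
      (∀ a x, r (L.rot a x) = r x) ∧
      ∀ t x, r (L.φ t x) - r x = h * t - ∫ s in (0 : ℝ)..t, w (π (L.φ s x)) := by
  classical
  set wb : Y → ℝ := fun v => w v - h with hwb
  have hwbc : Continuous wb := hw.sub continuous_const
  obtain ⟨G, Ψ, hGm, hGae, hGφ, -, hΨφ, hΨp, hΨm⟩ := core (w := wb) hπ.flow hm hwbc hψm hψI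
    (fun T => hψ T) (ua_p hπ) (ua_m hπ)
  set P : X → ℝ := fun x => Ψ (π x) with hP
  set W : X → ℝ := fun x => w (π x) with hWdef
  set W' : X → ℝ := fun x => w (π (L.flip x)) with hW'def
  have hWc : Continuous W := hw.comp hπ.cont
  have hW'c : Continuous W' := hw.comp (hπ.cont.comp L.flip_cont)
  have hSScont : ∀ v, Continuous fun t => SS ϕ wb t v := fun v =>
    (hπ.flow.SS_cont hwbc).comp (continuous_id.prodMk continuous_const)
  -- the stable relation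
  have hst : ∀ ξ x, ξ ≠ L.ep x → π x ∈ G → π (L.hol ξ x) ∈ G →
      P x - P (L.hol ξ x) = -ES L W (ξ, x) := by
    intro ξ x hξ h1 h2
    obtain ⟨C, hC⟩ := L.hol_asym {(ξ, x)} isCompact_singleton (by rintro p rfl; exact hξ)
    refine hΨp ⌈C⌉₊ _ h1 _ h2 ⟨x, L.hol ξ x, rfl, rfl, fun t ht => ?_⟩ _ ?_
    · exact (hC (ξ, x) rfl t ht).trans
        (mul_le_mul_of_nonneg_right (Nat.le_ceil C) (Real.exp_pos _).le)
    · have h3 := ES_tendsto L hWc hW ⟨(ξ, x), hξ⟩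
      refine h3.congr fun T => ?_
      unfold SS
      rw [← intervalIntegral.integral_sub (hπ.flow.intble hwbc _ 0 T)
        (hπ.flow.intble hwbc _ 0 T)]
      congr 1
      funext s
      simp only [hwb, dS, ← hπ.φ, hWdef]
      ring
  -- the unstable relation
  have hun : ∀ η x, η ≠ L.em x → π x ∈ G → π (hu L η x) ∈ G →
      P x - P (hu L η x) = ES L W' (η, L.flip x) := by
    intro η x hη h1 h2
    have hη' : η ≠ L.ep (L.flip x) := by rwa [ep_flip']
    obtain ⟨C, hC⟩ := L.hol_asym {(η, L.flip x)} isCompact_singleton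
      (by rintro p rfl; exact hη')
    have h4 : P x - P (hu L η x) = -(-ES L W' (η, L.flip x)) := by
      refine hΨm ⌈C⌉₊ _ h1 _ h2 ⟨L.flip x, L.hol η (L.flip x), by rw [L.flip_flip], rfl,
        fun t ht => ?_⟩ _ ?_
      · exact (hC (η, L.flip x) rfl t ht).trans
          (mul_le_mul_of_nonneg_right (Nat.le_ceil C) (Real.exp_pos _).le)
      · have h3 := (ES_tendsto L hW'c hW' ⟨(η, L.flip x), hη'⟩).neg
        refine h3.congr fun T => ?_
        rw [← SS_reverse, ← SS_reverse]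
        unfold SS
        rw [← intervalIntegral.integral_sub
          (hπ.flow.reverse.intble (w := fun y => -wb y) hwbc.neg _ 0 T)
          (hπ.flow.reverse.intble (w := fun y => -wb y) hwbc.neg _ 0 T),
          ← intervalIntegral.integral_neg]
        congr 1
        funext s
        have e1 : ∀ y, ϕ (-s) (π (L.flip y)) = π (L.flip (L.φ s y)) := fun y => by
          rw [L.flip_φ, hπ.φ]
        have e2 : ϕ (-s) (π x) = π (L.flip (L.φ s (L.flip x))) := by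
          rw [← e1, L.flip_flip]
        simp only [hwb, dS, hW'def, hu, e1, e2]
        ring
    rw [h4, neg_neg]
  -- good pairs
  set Gd : B → B → Prop := fun ξ η => ∀ x, L.em x = ξ → L.ep x = η → π x ∈ G with hGd
  have hgood : ∀ᵐ ξ ∂ν₀, ∀ᵐ η ∂ν₀, Gd ξ η := hAC.hopf₁ G hGm hGφ hGae
  have hgood' : ∀ᵐ η ∂ν₀, ∀ᵐ ξ ∂ν₀, Gd ξ η := hAC.hopf₂ G hGm hGφ hGae
  -- the choice of the base geodesics
  obtain ⟨x₁⟩ := L.nonempty
  obtain ⟨U₁, U₂, hU₁, hU₂, hxU₁, hxU₂, hdisj⟩ := t2_separation (L.em_ne_ep x₁)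
  have hpick : ∀ {U : Set B}, IsOpen U → U.Nonempty → ∀ {q : B → Prop}, (∀ᵐ ξ ∂ν₀, q ξ) →
      ∃ ξ ∈ U, q ξ := by
    intro U hU hne q hq
    obtain ⟨ξ, h1, h2⟩ := (frequently_ae_mem_iff.2 (hAC.pos U hU hne)).and_eventually hq |>.exists
    exact ⟨ξ, h1, h2⟩
  obtain ⟨η₁, hη₁U, hη₁⟩ := hpick hU₁ ⟨_, hxU₁⟩ hgood'
  obtain ⟨η₂, hη₂U, hη₂⟩ := hpick hU₂ ⟨_, hxU₂⟩ hgood'
  obtain ⟨ξ₁, hξ₁U, hξ₁⟩ := hpick hU₂ ⟨_, hxU₂⟩ hη₁
  obtain ⟨ξ₂, hξ₂U, hξ₂⟩ := hpick hU₁ ⟨_, hxU₁⟩ hη₂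
  have hne12 : ∀ {a b : B}, a ∈ U₁ → b ∈ U₂ → a ≠ b := fun ha hb hab =>
    disjoint_left.1 hdisj ha (hab ▸ hb)
  -- the local solution
  have hloc : ∀ ξ₀ η₀ : B, ξ₀ ≠ η₀ → Gd ξ₀ η₀ → ∃ c : X → ℝ,
      ContinuousOn c {x | L.em x ≠ η₀} ∧
      ∀ x, L.em x ≠ η₀ → Gd (L.em x) (L.ep x) → Gd (L.em x) η₀ → c x = P x := by
    intro ξ₀ η₀ hne hG0
    obtain ⟨x₀, hx1, hx2, hx3⟩ := L.exists_frame ξ₀ η₀ hne 0
    refine ⟨fun x => P x₀ + SS ϕ wb (L.lv (L.hol ξ₀ (hu L η₀ x))) (π x₀)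
      - ES L W (ξ₀, hu L η₀ x) + ES L W' (η₀, L.flip x), ?_, ?_⟩
    · have hq : ContinuousOn (fun x => (ξ₀, hu L η₀ x)) {x | L.em x ≠ η₀} :=
        continuousOn_const.prodMk (hu_cont L η₀)
      have hqm : MapsTo (fun x => (ξ₀, hu L η₀ x)) {x | L.em x ≠ η₀} (Hp L) := by
        intro x hx
        change ξ₀ ≠ L.ep (hu L η₀ x)
        rw [hu_ep L (fun h => hx h.symm)]
        exact hne
      have hE : ∀ {V : X → ℝ}, Continuous V → Hold V → ContinuousOn (ES L V) (Hp L) :=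
        fun hV hV' => continuousOn_iff_continuous_domRestrict.2 (ES_cont L hV hV')
      refine ((continuousOn_const.add ?_).sub ((hE hWc hW).comp hq hqm)).add
        ((hE hW'c hW').comp (f := fun x => (η₀, L.flip x))
          (continuous_const.prodMk L.flip_cont).continuousOn (fun x hx => ?_))
      · refine (hSScont (π x₀)).comp_continuousOn (L.lv_cont.comp_continuousOn ?_)
        exact L.hol_cont.comp hq hqm
      · change η₀ ≠ L.ep (L.flip x)
        rw [ep_flip']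
        exact fun h => hx h.symm
    · intro x hx hx4 hx5
      have hx' : η₀ ≠ L.em x := fun h => hx h.symm
      have hy1 : L.ep (hu L η₀ x) = η₀ := hu_ep L hx'
      have hyG : π (hu L η₀ x) ∈ G := hx5 _ (hu_em L hx') hy1
      have hξy : ξ₀ ≠ L.ep (hu L η₀ x) := by rw [hy1]; exact hne
      set z := L.hol ξ₀ (hu L η₀ x) with hz
      have hz1 : L.em z = ξ₀ := L.hol_em _ _ hξy
      have hz2 : L.ep z = η₀ := by rw [hz, L.hol_ep _ _ hξy, hy1]
      have hzG : π z ∈ G := hG0 z hz1 hz2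
      have h1 := hun η₀ x hx' (hx4 x rfl rfl) hyG
      have h2 := hst ξ₀ _ hξy hyG hzG
      obtain ⟨a, ha⟩ := L.frame_unique (L.φ (L.lv z) x₀) z (by rw [L.em_φ, hx1, hz1])
        (by rw [ep_φ, hx2, hz2]) (by rw [L.lv_φ, hx3, zero_add])
      have h3 : P z = P x₀ + SS ϕ wb (L.lv z) (π x₀) := by
        have e1 : π z = ϕ (L.lv z) (π x₀) := by
          conv_lhs => rw [ha]
          rw [hπ.rot, hπ.φ]
        simp only [hP]
        rw [e1, hΨφ _ _ (hG0 x₀ hx1 hx2)]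
      change P x₀ + SS ϕ wb (L.lv z) (π x₀) - ES L W (ξ₀, hu L η₀ x)
        + ES L W' (η₀, L.flip x) = P x
      rw [← h3]
      linarith
  obtain ⟨c₁, hc₁, hc₁P⟩ := hloc ξ₁ η₁ (hne12 hη₁U hξ₁U).symm hξ₁
  obtain ⟨c₂, hc₂, hc₂P⟩ := hloc ξ₂ η₂ (hne12 hξ₂U hη₂U) hξ₂
  have hη12 : η₁ ≠ η₂ := hne12 hη₁U hη₂U
  -- the dense set
  set Q : B × B → Prop := fun p => Gd p.1 p.2 ∧ Gd p.1 η₁ ∧ Gd p.1 η₂ with hQdef
  have hQ : ∀ᵐ ξ ∂ν₀, ∀ᵐ η ∂ν₀, Q (ξ, η) := by
    filter_upwards [hgood, hη₁, hη₂] with ξ a b c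
    filter_upwards [a] with η a' using ⟨a', b, c⟩
  have hD : Dense {x | Q (L.em x, L.ep x)} := dense_of_ae L hAC.pos hQ
  have hV₁ : IsOpen {x | L.em x ≠ η₁} := isOpen_ne_fun L.em_cont continuous_const
  have hV₂ : IsOpen {x | L.em x ≠ η₂} := isOpen_ne_fun L.em_cont continuous_const
  have h12 : ∀ x, L.em x ≠ η₁ → L.em x ≠ η₂ → c₁ x = c₂ x := by
    intro x hx1 hx2
    refine eqOn_of_dense (hV₁.inter hV₂) hD (hc₁.mono inter_subset_left)
      (hc₂.mono inter_subset_right) (fun y hy hyD => ?_) x ⟨hx1, hx2⟩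
    rw [hc₁P y hy.1 hyD.1 hyD.2.1, hc₂P y hy.2 hyD.1 hyD.2.2]
  set c : X → ℝ := fun x => if L.em x ≠ η₁ then c₁ x else c₂ x with hc
  have hcc : Continuous c := by
    rw [continuous_iff_continuousAt]
    intro x
    by_cases hx : L.em x ≠ η₁
    · refine (hc₁.continuousAt (hV₁.mem_nhds hx)).congr ?_
      filter_upwards [hV₁.mem_nhds hx] with y hy
      have hy' : L.em y ≠ η₁ := hy
      simp only [hc, if_pos hy']
    · have hx2 : L.em x ≠ η₂ := by
        rw [not_not] at hx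
        rw [hx]; exact hη12
      refine (hc₂.continuousAt (hV₂.mem_nhds hx2)).congr ?_
      filter_upwards [hV₂.mem_nhds hx2] with y hy
      simp only [hc]
      split_ifs with h1
      · exact (h12 y h1 hy).symm
      · rfl
  have hcP : ∀ x, Q (L.em x, L.ep x) → c x = P x := by
    intro x hx
    simp only [hc]
    split_ifs with h1
    · exact hc₁P x h1 hx.1 hx.2.1
    · refine hc₂P x ?_ hx.1 hx.2.2
      rw [not_not] at h1
      rw [h1]; exact hη12
  refine ⟨fun x => -c x, hcc.neg, ?_, ?_, ?_⟩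
  · intro g
    have hgm : Measurable fun ξ : B => g • ξ := (continuous_const_smul g).measurable
    have e1 : ∀ᵐ ξ ∂ν₀, ∀ᵐ η ∂ν₀, Q (g • ξ, η) :=
      ae_of_ae_map hgm.aemeasurable ((hAC.qi g).ae_le hQ)
    have h1 : ∀ᵐ ξ ∂ν₀, ∀ᵐ η ∂ν₀, Q (g • ξ, g • η) := by
      filter_upwards [e1] with ξ hξ
      exact ae_of_ae_map hgm.aemeasurable ((hAC.qi g).ae_le hξ)
    have h2 : ∀ᵐ ξ ∂ν₀, ∀ᵐ η ∂ν₀, Q (ξ, η) ∧ Q (g • ξ, g • η) := by
      filter_upwards [hQ, h1] with ξ a b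
      exact a.and b
    have hD2 := dense_of_ae L (Q := fun p => Q p ∧ Q (g • p.1, g • p.2)) hAC.pos h2
    have h3 : ∀ x ∈ (univ : Set X), -c (g • x) = -c x := by
      refine eqOn_of_dense isOpen_univ hD2 (hcc.comp (continuous_const_smul g)).neg.continuousOn
        hcc.neg.continuousOn fun x _ hx => ?_
      have e1 : Q (L.em (g • x), L.ep (g • x)) := by
        rw [L.em_smul, ep_smul]; exact hx.2
      rw [hcP _ e1, hcP _ hx.1]
      simp only [hP, hπ.smul]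
    exact fun x => h3 x (mem_univ x)
  · intro a
    have h3 : ∀ x ∈ (univ : Set X), -c (L.rot a x) = -c x := by
      refine eqOn_of_dense isOpen_univ hD (hcc.comp (L.rot_cont a)).neg.continuousOn
        hcc.neg.continuousOn fun x _ hx => ?_
      have e1 : Q (L.em (L.rot a x), L.ep (L.rot a x)) := by
        rw [L.em_rot, ep_rot]; exact hx
      rw [hcP _ e1, hcP _ hx]
      simp only [hP, hπ.rot]
    exact fun x => h3 x (mem_univ x)
  · intro t
    have hφt : Continuous (L.φ t) := (cflow L).cont_t t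
    have h4 : Continuous fun x => SS ϕ wb t (π x) :=
      (hπ.flow.SS_cont hwbc).comp (continuous_const.prodMk hπ.cont)
    have h3 : ∀ x ∈ (univ : Set X), -c (L.φ t x) - -c x = -SS ϕ wb t (π x) := by
      refine eqOn_of_dense isOpen_univ hD
        ((hcc.comp hφt).neg.sub hcc.neg).continuousOn h4.neg.continuousOn fun x _ hx => ?_
      have e1 : Q (L.em (L.φ t x), L.ep (L.φ t x)) := by
        rw [L.em_φ, ep_φ]; exact hx
      rw [hcP _ e1, hcP _ hx]
      simp only [hP, hπ.φ]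
      rw [hΨφ _ _ (hx.1 x rfl rfl)]
      ring
    intro x
    rw [h3 x (mem_univ x)]
    unfold SS
    simp only [hwb]
    rw [intervalIntegral.integral_sub (hπ.flow.intble hw _ 0 t)
      intervalIntegrable_const, intervalIntegral.integral_const]
    simp only [hπ.φ, sub_zero, smul_eq_mul]
    ring

omit [MeasurableSpace B] [BorelSpace B] in
/-- A continuous function which is invariant under the group, the flow and the rotations is
constant. -/
theorem invariant_const (L : Leaf Γ X B) {F : X → ℝ} (hF : Continuous F)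
    (hΓ : ∀ (g : Γ) x, F (g • x) = F x) (hrot : ∀ a x, F (L.rot a x) = F x)
    (hφ : ∀ t x, F (L.φ t x) = F x) : ∀ x y, F x = F y := by
  -- along stable leaves
  have hst : ∀ ξ x, ξ ≠ L.ep x → F (L.hol ξ x) = F x := by
    intro ξ x hξ
    obtain ⟨C, hC⟩ := L.hol_asym {(ξ, x)} isCompact_singleton (by rintro p rfl; exact hξ)
    by_contra hne
    obtain ⟨δ, hδ, h⟩ := unif L hF hΓ (abs_pos.2 (sub_ne_zero.2 hne))
    obtain ⟨N, hN0, hN⟩ := ev_small L ⌈C⌉₊ hδ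
    have h1 := hC (ξ, x) rfl N hN0
    have h2 := (mul_le_mul_of_nonneg_right (Nat.le_ceil C) (Real.exp_pos (-L.χ * N)).le).trans_lt
      (hN N le_rfl)
    have h3 := h _ _ (h1.trans_lt h2)
    simp only [hφ] at h3
    rw [abs_sub_comm] at h3
    exact lt_irrefl _ h3
  have hF' : Continuous fun x => F (L.flip x) := hF.comp L.flip_cont
  have hun : ∀ η x, η ≠ L.em x → F (hu L η x) = F x := by
    intro η x hη
    have hη' : η ≠ L.ep (L.flip x) := by rwa [ep_flip']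
    obtain ⟨C, hC⟩ := L.hol_asym {(η, L.flip x)} isCompact_singleton
      (by rintro p rfl; exact hη')
    by_contra hne
    obtain ⟨δ, hδ, h⟩ := unif L hF' (fun g x => by rw [L.flip_smul, hΓ])
      (abs_pos.2 (sub_ne_zero.2 hne))
    obtain ⟨N, hN0, hN⟩ := ev_small L ⌈C⌉₊ hδ
    have h1 := hC (η, L.flip x) rfl N hN0
    have h2 := (mul_le_mul_of_nonneg_right (Nat.le_ceil C) (Real.exp_pos (-L.χ * N)).le).trans_lt
      (hN N le_rfl)
    have h3 := h _ _ (h1.trans_lt h2)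
    simp only [L.flip_φ, hφ, L.flip_flip] at h3
    rw [abs_sub_comm] at h3
    exact lt_irrefl _ h3
  -- the same geodesic
  have hsame : ∀ x y, L.em x = L.em y → L.ep x = L.ep y → F x = F y := by
    intro x y h1 h2
    obtain ⟨a, ha⟩ := L.frame_unique (L.φ (L.lv y - L.lv x) x) y (by rw [L.em_φ, h1])
      (by rw [ep_φ, h2]) (by rw [L.lv_φ]; ring)
    rw [ha, hrot, hφ]
  have key : ∀ x y, L.em x ≠ L.ep y → F x = F y := by
    intro x y hxy
    have h1 := hun (L.ep y) x hxy.symm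
    have h2 : L.em y ≠ L.ep (hu L (L.ep y) x) := by
      rw [hu_ep L hxy.symm]; exact L.em_ne_ep y
    have h3 := hst (L.em y) _ h2
    rw [← h1, ← h3]
    apply hsame
    · rw [L.hol_em _ _ h2]
    · rw [L.hol_ep _ _ h2, hu_ep L hxy.symm]
  intro x y
  by_cases hxy : L.em x ≠ L.ep y
  · exact key x y hxy
  by_cases hyx : L.em y ≠ L.ep x
  · exact (key y x hyx).symm
  -- now `y` is `x` backwards
  rw [not_not] at hxy hyx
  have h1 : F x = F (hu L (L.ep x) x) := (hun (L.ep x) x (L.em_ne_ep x).symm).symm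
  by_cases hthird : ∃ ζ : B, ζ ≠ L.em x ∧ ζ ≠ L.ep x
  · obtain ⟨ζ, hζ1, hζ2⟩ := hthird
    obtain ⟨u, hu1, hu2, -⟩ := L.exists_frame ζ (L.ep x) hζ2 0
    have e1 : F u = F x := key u x (by rw [hu1]; exact hζ2)
    have e2 : F u = F y := key u y (by rw [hu1, ← hxy]; exact hζ1)
    rw [← e1, e2]
  · -- impossible: the chart is injective
    exfalso
    apply hthird
    have hinj := L.e_inj x
    set u : E2 := EuclideanSpace.single 0 1 with hu
    have hun1 : ‖u‖ = 1 := by simp [hu]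
    have hu3 : u ∈ closedBall (0 : E2) 3 := by
      rw [mem_closedBall_zero_iff, hun1]; norm_num
    have h03 : (0 : E2) ∈ closedBall (0 : E2) 3 := by simp
    refine ⟨L.e x u, L.e_ne x u hu3, fun hcon => ?_⟩
    have := hinj hu3 h03 (by rw [hcon, L.e_zero])
    rw [this, norm_zero] at hun1
    exact zero_ne_one hun1

/-- **(1*)** Normalisation of the transfer function: `f = log det (U + U ∘ flip)`. -/
theorem exists_r_norm (L : Leaf Γ X B) {ϕ : ℝ → Y → Y} {π : X → Y} (hπ : Factor L ϕ π)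
    (hm : ∀ t, MeasurePreserving (ϕ t) m m) [m.WeaklyRegular] {w : Y → ℝ} (hw : Continuous w)
    (hW : Hold fun x => w (π x)) (hW' : Hold fun x => w (π (L.flip x))) (h : ℝ)
    {ψ : Y → ℝ} (hψm : Measurable ψ) (hψI : Integrable ψ m)
    (hψ : ∀ T, ∀ᵐ v ∂m, ψ (ϕ T v) - ψ v = ∫ s in (0 : ℝ)..T, (w (ϕ s v) - h))
    (hAC : HopfAC L ϕ π m ν₀) {f : X → ℝ} (hf : Continuous f)
    (hfΓ : ∀ (g : Γ) x, f (g • x) = f x) (hfrot : ∀ a x, f (L.rot a x) = f x)
    (hfφ : ∀ t x, f (L.φ t x) - f x =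
      ∫ s in (0 : ℝ)..t, (w (π (L.flip (L.φ s x))) - w (π (L.φ s x)))) :
    ∃ r : X → ℝ, Continuous r ∧ (∀ (g : Γ) x, r (g • x) = r x) ∧
      (∀ a x, r (L.rot a x) = r x) ∧
      (∀ t x, r (L.φ t x) - r x = h * t - ∫ s in (0 : ℝ)..t, w (π (L.φ s x))) ∧
      ∀ x, f x = r x + r (L.flip x) := by
  obtain ⟨r, hr, hrΓ, hrrot, hrφ⟩ := exists_r L hπ hm hw hW hW' h hψm hψI hψ hAC
  have hi1 : ∀ t x, IntervalIntegrable (fun s => w (π (L.flip (L.φ s x)))) volume 0 t :=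
    fun t x => (hw.comp (hπ.cont.comp (L.flip_cont.comp
      ((cflow L).cont_y x)))).intervalIntegrable _ _
  have hi2 : ∀ t x, IntervalIntegrable (fun s => w (π (L.φ s x))) volume 0 t :=
    fun t x => (hw.comp (hπ.cont.comp ((cflow L).cont_y x))).intervalIntegrable _ _
  have hflip : ∀ t x, r (L.flip (L.φ t x)) - r (L.flip x) =
      -(h * t) + ∫ s in (0 : ℝ)..t, w (π (L.flip (L.φ s x))) := by
    intro t x
    rw [L.flip_φ, hrφ]
    have h1 : ∫ s in (0 : ℝ)..(-t), w (π (L.φ s (L.flip x))) =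
        -∫ s in (0 : ℝ)..t, w (π (L.flip (L.φ s x))) := by
      have h2 := intervalIntegral.integral_comp_neg (a := 0) (b := t)
        (fun s => w (π (L.φ s (L.flip x))))
      rw [neg_zero] at h2
      rw [intervalIntegral.integral_symm, ← h2]
      simp only [L.flip_φ]
    rw [h1]
    ring
  obtain ⟨x₀⟩ := L.nonempty
  set F : X → ℝ := fun x => f x - (r x + r (L.flip x)) with hF
  have hconst := invariant_const L (F := F) (hf.sub (hr.add (hr.comp L.flip_cont)))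
    (fun g x => by simp only [hF, hfΓ, hrΓ, L.flip_smul])
    (fun a x => by simp only [hF, hfrot, hrrot, L.flip_rot])
    (fun t x => by
      have h1 := hfφ t x
      have h2 := hrφ t x
      have h3 := hflip t x
      rw [intervalIntegral.integral_sub (hi1 t x) (hi2 t x)] at h1
      simp only [hF]
      linarith)
  refine ⟨fun x => r x + F x₀ / 2, hr.add continuous_const, fun g x => by simp only [hrΓ],
    fun a x => by simp only [hrrot], fun t x => by rw [← hrφ]; ring, fun x => ?_⟩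
  have := hconst x x₀
  simp only [hF] at this ⊢
  linarith

end Vale.Agent.P207.N3.H732
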