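import Mathlib

/-!
# P207, dimension 3, P2-L: regularity of transfer functions, measure theoretic core

`φ` is a continuous flow on a compact space with an invariant probability measure `m`, and `ψ` is
an integrable function with `ψ (φ T v) - ψ v = ∫₀ᵀ w (φ s v) ds` for almost all `v`, for every
`T`. There are a flow invariant set `G` of full measure and a version `Ψ` of `ψ` which satisfies
the equation on `G` for all times, and such that `Ψ v - Ψ v'` is the convergent integral of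
`w (φ t v') - w (φ t v)` for ALL uniformly asymptotic pairs of points of `G`.
-/

open MeasureTheory Set Filter Topology
open scoped ENNReal

noncomputable section

namespace Vale.Agent.P207.N3.H732

/-- A continuous flow. -/
structure CFlow {Y : Type*} [TopologicalSpace Y] (φ : ℝ → Y → Y) : Prop where
  zero : ∀ y, φ 0 y = y
  add : ∀ s t y, φ (s + t) y = φ s (φ t y)
  cont : Continuous fun p : ℝ × Y => φ p.1 p.2

/-- The integral along the orbits. -/
def SS {Y : Type*} (φ : ℝ → Y → Y) (w : Y → ℝ) (t : ℝ) (y : Y) : ℝ :=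
  ∫ s in (0 : ℝ)..t, w (φ s y)

/-- A set of uniformly positively asymptotic pairs. -/
def UA {Y : Type*} [TopologicalSpace Y] (φ : ℝ → Y → Y) (R : Set (Y × Y)) : Prop :=
  ∀ f : Y → ℝ, Continuous f → ∀ ε > (0 : ℝ), ∃ N : ℝ, ∀ t ≥ N, ∀ p ∈ R,
    |f (φ t p.1) - f (φ t p.2)| ≤ ε

section Flow

variable {Y : Type*} {φ : ℝ → Y → Y} {w : Y → ℝ}

theorem SS_zero (y : Y) : SS φ w 0 y = 0 := by simp [SS]

theorem SS_reverse (t : ℝ) (y : Y) :
    SS (fun t => φ (-t)) (fun y => -w y) t y = SS φ w (-t) y := by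
  unfold SS
  rw [intervalIntegral.integral_neg,
    intervalIntegral.integral_comp_neg (fun s => w (φ s y)), neg_zero,
    intervalIntegral.integral_symm, neg_neg]

variable [TopologicalSpace Y]

theorem CFlow.reverse (hφ : CFlow φ) : CFlow fun t => φ (-t) where
  zero y := by simp [hφ.zero]
  add s t y := by rw [neg_add, hφ.add]
  cont := hφ.cont.comp (continuous_fst.neg.prodMk continuous_snd)

theorem CFlow.cont_t (hφ : CFlow φ) (t : ℝ) : Continuous (φ t) :=
  hφ.cont.comp (continuous_const.prodMk continuous_id)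

theorem CFlow.cont_y (hφ : CFlow φ) (y : Y) : Continuous fun t => φ t y :=
  hφ.cont.comp (continuous_id.prodMk continuous_const)

theorem CFlow.intble (hφ : CFlow φ) (hw : Continuous w) (y : Y) (a b : ℝ) :
    IntervalIntegrable (fun s => w (φ s y)) volume a b :=
  (hw.comp (hφ.cont_y y)).intervalIntegrable _ _

theorem CFlow.SS_add (hφ : CFlow φ) (hw : Continuous w) (s t : ℝ) (y : Y) :
    SS φ w (s + t) y = SS φ w t y + SS φ w s (φ t y) := by
  unfold SS
  have h1 : ∫ u in (0 : ℝ)..s, w (φ u (φ t y)) = ∫ u in t..(s + t), w (φ u y) := by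
    have h2 := intervalIntegral.integral_comp_add_right (a := 0) (b := s)
      (fun u => w (φ u y)) t
    rw [zero_add] at h2
    rw [← h2]
    congr 1
    funext u
    rw [hφ.add]
  rw [h1, intervalIntegral.integral_add_adjacent_intervals (hφ.intble hw y 0 t)
    (hφ.intble hw y t (s + t))]

theorem CFlow.SS_cont [LocallyCompactSpace Y] (hφ : CFlow φ) (hw : Continuous w) :
    Continuous fun p : ℝ × Y => SS φ w p.1 p.2 := by
  have h1 : Continuous (Function.uncurry fun (y : Y) (s : ℝ) => w (φ s y)) :=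
    hw.comp (hφ.cont.comp (continuous_snd.prodMk continuous_fst))
  have h2 := intervalIntegral.continuous_parametric_primitive_of_continuous
    (μ := volume) (a₀ := 0) h1
  exact h2.comp (continuous_snd.prodMk continuous_fst)

end Flow

variable {Y : Type*} [TopologicalSpace Y] [CompactSpace Y] [T2Space Y] [MeasurableSpace Y]
  [BorelSpace Y] {m : Measure Y} [IsProbabilityMeasure m] {φ : ℝ → Y → Y} {w : Y → ℝ}

omit [T2Space Y] in
/-- a property which holds almost everywhere holds along almost every orbit -/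
theorem ae_orbit (hφ : CFlow φ) (hm : ∀ t, MeasurePreserving (φ t) m m) {A : Set Y}
    (hA : MeasurableSet A) (h : ∀ᵐ v ∂m, v ∈ A) : ∀ᵐ v ∂m, ∀ᵐ s : ℝ, φ s v ∈ A := by
  have hmeas : MeasurableSet {p : ℝ × Y | φ p.1 p.2 ∈ A} := hφ.cont.measurable hA
  rw [← Measure.ae_ae_comm hmeas]
  exact Eventually.of_forall fun s => (hm s).quasiMeasurePreserving.ae h

/-- **One side**: all uniformly positively asymptotic pairs. -/
theorem one_side (hφ : CFlow φ) (hm : ∀ t, MeasurePreserving (φ t) m m) [m.WeaklyRegular]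
    {Ψ : Y → ℝ} (hΨm : Measurable Ψ) (hΨ : Integrable Ψ m) {D : Set Y} (hD : MeasurableSet D)
    (hDae : ∀ᵐ v ∂m, v ∈ D) (hDφ : ∀ t, ∀ v ∈ D, φ t v ∈ D)
    (hDΨ : ∀ t, ∀ v ∈ D, Ψ (φ t v) = Ψ v + SS φ w t v) {R : ℕ → Set (Y × Y)}
    (hR : ∀ k, UA φ (R k)) :
    ∃ G ⊆ D, MeasurableSet G ∧ (∀ᵐ v ∂m, v ∈ G) ∧ (∀ t, ∀ v ∈ G, φ t v ∈ G) ∧
      ∀ k, ∀ v ∈ G, ∀ v' ∈ G, (v, v') ∈ R k → ∀ E : ℝ,
        Tendsto (fun T => SS φ w T v - SS φ w T v') atTop (𝓝 E) → Ψ v - Ψ v' = -E := by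
  have hε : ∀ j : ℕ, ((2 : ℝ≥0∞)⁻¹ ^ j) ≠ 0 := fun j => by
    apply pow_ne_zero; simp
  choose f hf _ using fun j => hΨ.exists_boundedContinuous_lintegral_sub_le (hε j)
  have hN : ∀ j : ℕ, ∃ N : ℝ, (j : ℝ) ≤ N ∧ ∀ k ≤ j, ∀ t ≥ N, ∀ p ∈ R k,
      |f j (φ t p.1) - f j (φ t p.2)| ≤ 1 / ((j : ℝ) + 1) := by
    intro j
    choose N hN using fun k => hR k (f j) (f j).continuous (1 / ((j : ℝ) + 1)) (by positivity)
    obtain ⟨M, hM⟩ : ∃ M : ℝ, ∀ k ∈ Finset.range (j + 1), N k ≤ M :=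
      ⟨(Finset.range (j + 1)).sup' ⟨0, by simp⟩ N, fun k hk => Finset.le_sup' N hk⟩
    refine ⟨max j M, le_max_left _ _, fun k hk t ht p hp => hN k t ?_ p hp⟩
    exact ((hM k (Finset.mem_range.2 (by omega))).trans (le_max_right _ _)).trans ht
  choose N hNj hN using hN
  -- the good set at time zero
  set g : ℕ → Y → ℝ≥0∞ := fun j v => ‖Ψ (φ (N j) v) - f j (φ (N j) v)‖ₑ with hg
  have hgm : ∀ j, Measurable (g j) := fun j =>
    ((hΨm.comp (hφ.cont_t _).measurable).sub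
      ((f j).continuous.measurable.comp (hφ.cont_t _).measurable)).enorm
  set G₀ : Set Y := {v | ∑' j, g j v ≠ ⊤} with hG₀
  have hsum : Measurable fun v => ∑' j, g j v := Measurable.tsum hgm
  have hG₀m : MeasurableSet G₀ := (hsum (measurableSet_singleton ⊤)).compl
  have hG₀ae : ∀ᵐ v ∂m, v ∈ G₀ := by
    have h1 : ∫⁻ v, ∑' j, g j v ∂m ≠ ⊤ := by
      rw [lintegral_tsum fun j => (hgm j).aemeasurable]
      have h2 : ∀ j, ∫⁻ v, g j v ∂m ≤ (2 : ℝ≥0∞)⁻¹ ^ j := by
        intro j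
        have h3 := (hm (N j)).lintegral_comp (f := fun v => ‖Ψ v - f j v‖ₑ)
          ((hΨm.sub (f j).continuous.measurable).enorm)
        simp only [hg]
        rw [h3]
        exact hf j
      refine ne_top_of_le_ne_top ?_ (ENNReal.tsum_le_tsum h2)
      rw [ENNReal.tsum_geometric]
      simp
    filter_upwards [ae_lt_top hsum h1] with v hv using hv.ne
  -- the flow invariant version
  have hF : Measurable fun v => ∫⁻ s : ℝ, (G₀ᶜ.indicator (fun _ => (1 : ℝ≥0∞)) (φ s v)) := by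
    apply Measurable.lintegral_prod_right' (f := fun p : Y × ℝ =>
      G₀ᶜ.indicator (fun _ => (1 : ℝ≥0∞)) (φ p.2 p.1))
    exact (measurable_const.indicator hG₀m.compl).comp
      (hφ.cont.measurable.comp measurable_swap)
  set F : Set Y := {v | ∫⁻ s : ℝ, (G₀ᶜ.indicator (fun _ => (1 : ℝ≥0∞)) (φ s v)) = 0} with hFdef
  have hFiff : ∀ v, v ∈ F ↔ ∀ᵐ s : ℝ, φ s v ∈ G₀ := by
    intro v
    have h0 : Measurable fun s : ℝ => G₀ᶜ.indicator (fun _ => (1 : ℝ≥0∞)) (φ s v) :=
      (measurable_const.indicator hG₀m.compl).comp (hφ.cont_y v).measurable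
    rw [hFdef, mem_ofPred_eq, lintegral_eq_zero_iff h0]
    constructor
    · intro h
      filter_upwards [h] with s hs
      by_contra hcon
      have : φ s v ∈ G₀ᶜ := hcon
      simp [indicator_of_mem this] at hs
    · intro h
      filter_upwards [h] with s hs
      simp [hs]
  refine ⟨D ∩ F, inter_subset_left, hD.inter (hF (measurableSet_singleton 0)), ?_, ?_, ?_⟩
  · filter_upwards [hDae, ae_orbit hφ hm hG₀m hG₀ae] with v h1 h2
    exact ⟨h1, (hFiff v).2 h2⟩
  · rintro t v ⟨h1, h2⟩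
    refine ⟨hDφ t v h1, (hFiff _).2 ?_⟩
    have h3 := (measurePreserving_add_right (volume : Measure ℝ) t).quasiMeasurePreserving.ae
      ((hFiff v).1 h2)
    filter_upwards [h3] with s hs
    rwa [← hφ.add]
  · rintro k v ⟨hv1, hv2⟩ v' ⟨hv1', hv2'⟩ hk E hE
    obtain ⟨s, hs, hs0⟩ : ∃ s : ℝ, (φ s v ∈ G₀ ∧ φ s v' ∈ G₀) ∧ 0 ≤ s := by
      have h1 := (((hFiff v).1 hv2).and ((hFiff v').1 hv2'))
      have h2 : (ae (volume.restrict (Ici (0 : ℝ)))).NeBot := by
        rw [ae_neBot]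
        intro h
        have := congrArg (fun μ : Measure ℝ => μ univ) h
        simp at this
      obtain ⟨s, h3, h4⟩ := ((ae_restrict_of_ae (s := Ici (0 : ℝ)) h1).and
        (ae_restrict_mem measurableSet_Ici)).exists
      exact ⟨s, h3, h4⟩
    have hlim : ∀ u ∈ G₀, Tendsto (fun j => Ψ (φ (N j) u) - f j (φ (N j) u)) atTop (𝓝 0) := by
      intro u hu
      have h1 := ENNReal.tendsto_atTop_zero_of_tsum_ne_top hu
      rw [tendsto_zero_iff_norm_tendsto_zero]
      have h2 := (ENNReal.tendsto_toReal ENNReal.zero_ne_top).comp h1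
      simpa [hg, Function.comp_def, toReal_enorm] using h2
    have h1 := hlim _ hs.1
    have h2 := hlim _ hs.2
    have h3 : Tendsto (fun j => f j (φ (N j) (φ s v)) - f j (φ (N j) (φ s v'))) atTop
        (𝓝 0) := by
      apply squeeze_zero_norm' (a := fun j : ℕ => 1 / ((j : ℝ) + 1)) _
        tendsto_one_div_add_atTop_nhds_zero_nat
      filter_upwards [eventually_ge_atTop k] with j hj
      rw [Real.norm_eq_abs, ← hφ.add, ← hφ.add]
      exact hN j k hj (N j + s) (by linarith) (v, v') hk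
    have h4 : Tendsto (fun j => Ψ (φ (N j) (φ s v)) - Ψ (φ (N j) (φ s v'))) atTop (𝓝 0) := by
      have := (h1.add h3).sub h2
      simp only [add_zero, sub_zero] at this
      refine this.congr fun j => ?_
      ring
    have h5 : Tendsto (fun j => N j + s) atTop atTop := by
      apply tendsto_atTop_mono (f := fun j : ℕ => (j : ℝ)) (fun j => ?_)
        tendsto_natCast_atTop_atTop
      linarith [hNj j]
    have h6 := hE.comp h5
    have h7 : ∀ j, Ψ (φ (N j) (φ s v)) - Ψ (φ (N j) (φ s v')) =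
        (Ψ v - Ψ v') + (SS φ w (N j + s) v - SS φ w (N j + s) v') := by
      intro j
      rw [← hφ.add, ← hφ.add, hDΨ _ _ hv1, hDΨ _ _ hv1']
      ring
    simp only [h7] at h4
    have h8 := h4.sub h6
    simp only [Function.comp_def, add_sub_cancel_right, zero_sub] at h8
    exact tendsto_nhds_unique tendsto_const_nhds h8

/-- **The core.** -/
theorem core (hφ : CFlow φ) (hm : ∀ t, MeasurePreserving (φ t) m m) [m.WeaklyRegular]
    (hw : Continuous w) {ψ : Y → ℝ} (hψm : Measurable ψ) (hψI : Integrable ψ m)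
    (hψ : ∀ T, ∀ᵐ v ∂m, ψ (φ T v) - ψ v = SS φ w T v) {R R' : ℕ → Set (Y × Y)}
    (hR : ∀ k, UA φ (R k)) (hR' : ∀ k, UA (fun t => φ (-t)) (R' k)) :
    ∃ (G : Set Y) (Ψ : Y → ℝ), MeasurableSet G ∧ (∀ᵐ v ∂m, v ∈ G) ∧
      (∀ t, ∀ v ∈ G, φ t v ∈ G) ∧ (∀ᵐ v ∂m, Ψ v = ψ v) ∧
      (∀ t, ∀ v ∈ G, Ψ (φ t v) = Ψ v + SS φ w t v) ∧
      (∀ k, ∀ v ∈ G, ∀ v' ∈ G, (v, v') ∈ R k → ∀ E : ℝ,
        Tendsto (fun T => SS φ w T v - SS φ w T v') atTop (𝓝 E) → Ψ v - Ψ v' = -E) ∧
      (∀ k, ∀ v ∈ G, ∀ v' ∈ G, (v, v') ∈ R' k → ∀ E : ℝ,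
        Tendsto (fun T => SS φ w (-T) v - SS φ w (-T) v') atTop (𝓝 E) → Ψ v - Ψ v' = -E) := by
  have hSm : Measurable fun p : ℝ × Y => SS φ w p.1 p.2 := (hφ.SS_cont hw).measurable
  set J : ℝ × Y → ℝ := fun p => ψ (φ p.1 p.2) - SS φ w p.1 p.2 with hJ
  have hJm : Measurable J := (hψm.comp hφ.cont.measurable).sub hSm
  set Ψ : Y → ℝ := fun v => ∫ s in (0 : ℝ)..1, J (s, v) with hΨ
  have hΨm : Measurable Ψ := by
    simp only [hΨ, intervalIntegral.integral_of_le zero_le_one]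
    exact ((hJm.comp measurable_swap).stronglyMeasurable.integral_prod_right'
      (ν := volume.restrict (Ioc (0 : ℝ) 1))).measurable
  -- the set where `J` is constant
  set D : Set Y := {v | ∫⁻ s : ℝ, ‖J (s, v) - Ψ v‖ₑ = 0} with hDdef
  have hDm : MeasurableSet D := by
    have : Measurable fun v => ∫⁻ s : ℝ, ‖J (s, v) - Ψ v‖ₑ := by
      apply Measurable.lintegral_prod_right' (f := fun p : Y × ℝ => ‖J (p.2, p.1) - Ψ p.1‖ₑ)
      exact ((hJm.comp measurable_swap).sub (hΨm.comp measurable_fst)).enorm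
    exact this (measurableSet_singleton 0)
  have hJs : ∀ v, Measurable fun s => J (s, v) := fun v =>
    hJm.comp (measurable_id.prodMk measurable_const)
  have hDiff : ∀ v, v ∈ D ↔ ∀ᵐ s : ℝ, J (s, v) = Ψ v := by
    intro v
    have h0 : Measurable fun s => ‖J (s, v) - Ψ v‖ₑ := ((hJs v).sub measurable_const).enorm
    rw [hDdef, mem_ofPred_eq, lintegral_eq_zero_iff h0]
    constructor <;> intro h <;> filter_upwards [h] with s hs
    · simpa [sub_eq_zero] using hs
    · simp [hs]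
  have hconst : ∀ v c, (∀ᵐ s : ℝ, J (s, v) = c) → Ψ v = c := by
    intro v c h
    simp only [hΨ]
    rw [intervalIntegral.integral_congr_ae (g := fun _ => c)]
    · simp
    · filter_upwards [h] with s hs _ using hs
  have hJt : ∀ s t v, J (s, φ t v) = J (s + t, v) + SS φ w t v := by
    intro s t v
    simp only [hJ]
    rw [hφ.SS_add hw s t v, hφ.add]
    ring
  have hshift : ∀ t, ∀ v ∈ D, ∀ᵐ s : ℝ, J (s, φ t v) = Ψ v + SS φ w t v := by
    intro t v hv
    have h3 := (measurePreserving_add_right (volume : Measure ℝ) t).quasiMeasurePreserving.ae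
      ((hDiff v).1 hv)
    filter_upwards [h3] with s hs
    rw [hJt, hs]
  have hDΨ : ∀ t, ∀ v ∈ D, Ψ (φ t v) = Ψ v + SS φ w t v := fun t v hv =>
    hconst _ _ (hshift t v hv)
  have hDφ : ∀ t, ∀ v ∈ D, φ t v ∈ D := by
    intro t v hv
    rw [hDiff, hDΨ t v hv]
    exact hshift t v hv
  have hmeq : MeasurableSet {p : ℝ × Y | J p = ψ p.2} :=
    measurableSet_eq_fun hJm (hψm.comp measurable_snd)
  have hae : ∀ᵐ v ∂m, ∀ᵐ s : ℝ, J (s, v) = ψ v := by
    rw [← Measure.ae_ae_comm hmeq]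
    refine Eventually.of_forall fun s => ?_
    filter_upwards [hψ s] with v hv
    simp only [hJ]
    linarith
  have hΨψ : ∀ᵐ v ∂m, Ψ v = ψ v := by
    filter_upwards [hae] with v hv using hconst v _ hv
  have hDae : ∀ᵐ v ∂m, v ∈ D := by
    filter_upwards [hae, hΨψ] with v h1 h2
    rw [hDiff, h2]
    exact h1
  have hΨI : Integrable Ψ m := hψI.congr (by filter_upwards [hΨψ] with v hv using hv.symm)
  obtain ⟨G₁, hG₁D, hG₁m, hG₁ae, hG₁φ, hG₁⟩ :=
    one_side (w := w) hφ hm hΨm hΨI hDm hDae hDφ hDΨ hR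
  obtain ⟨G₂, hG₂D, hG₂m, hG₂ae, hG₂φ, hG₂⟩ :=
    one_side (φ := fun t => φ (-t)) (w := fun y => -w y) hφ.reverse (fun t => hm (-t)) hΨm hΨI
      hDm hDae (fun t v hv => hDφ (-t) v hv)
      (fun t v hv => by rw [SS_reverse]; exact hDΨ (-t) v hv) hR'
  refine ⟨G₁ ∩ G₂, Ψ, hG₁m.inter hG₂m, ?_, ?_, hΨψ, fun t v hv => hDΨ t v (hG₁D hv.1), ?_, ?_⟩
  · filter_upwards [hG₁ae, hG₂ae] with v h1 h2 using ⟨h1, h2⟩
  · rintro t v ⟨h1, h2⟩
    refine ⟨hG₁φ t v h1, ?_⟩
    have := hG₂φ (-t) v h2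
    simpa using this
  · exact fun k v hv v' hv' hk E hE => hG₁ k v hv.1 v' hv'.1 hk E hE
  · intro k v hv v' hv' hk E hE
    refine hG₂ k v hv.2 v' hv'.2 hk E ?_
    simpa only [SS_reverse] using hE

end Vale.Agent.P207.N3.H732
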