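import Vale.Agent.P207.N3.Spec
import Vale.Agent.P207.N3.H732.Core

/-!
# P207, dimension 3, P2-L: tools over the interface `Leaf`

Uniform continuity of `Γ`-invariant functions, the unstable holonomy of frames, openness of the
end point map, and the convergent integrals along asymptotic pairs.
-/

open Set Filter Topology Metric MeasureTheory

noncomputable section

namespace Vale.Agent.P207.N3.H732

variable {Γ X B : Type} [Group Γ] [MetricSpace X] [ProperSpace X] [MulAction Γ X]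
  [IsIsometricSMul Γ X] [TopologicalSpace B] [CompactSpace B] [T2Space B] [MulAction Γ B]
  [ContinuousConstSMul Γ B]

theorem cflow (L : Leaf Γ X B) : CFlow L.φ := ⟨L.φ_zero, L.φ_add, L.φ_cont⟩

/-- A continuous `Γ`-invariant function is uniformly continuous. -/
theorem unif (L : Leaf Γ X B) {F : X → ℝ} (hF : Continuous F) (hΓ : ∀ (g : Γ) x, F (g • x) = F x)
    {ε : ℝ} (hε : 0 < ε) : ∃ δ > 0, ∀ x y, dist x y < δ → |F x - F y| < ε := by
  obtain ⟨K, hK, hcov⟩ := L.cocompact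
  have hK1 : IsCompact (cthickening 1 K) := hK.cthickening
  have h1 := hK1.uniformContinuousOn_of_continuous hF.continuousOn
  rw [Metric.uniformContinuousOn_iff] at h1
  obtain ⟨δ, hδ, h2⟩ := h1 ε hε
  refine ⟨min δ 1, lt_min hδ one_pos, fun x y hxy => ?_⟩
  obtain ⟨g, hg⟩ := hcov x
  have h3 : dist (g • x) (g • y) = dist x y := dist_smul g x y
  have h4 := h2 (g • x) (self_subset_cthickening K hg) (g • y)
    (mem_cthickening_of_dist_le _ _ 1 K hg (by
      rw [dist_comm, h3]; exact (hxy.trans_le (min_le_right _ _)).le))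
    (by rw [h3]; exact hxy.trans_le (min_le_left _ _))
  rwa [hΓ, hΓ, Real.dist_eq] at h4

theorem ep_cont (L : Leaf Γ X B) : Continuous L.ep := by
  have : L.ep = fun x => L.em (L.flip x) := funext L.ep_flip
  rw [this]
  exact L.em_cont.comp L.flip_cont

theorem ep_φ (L : Leaf Γ X B) (t : ℝ) (x : X) : L.ep (L.φ t x) = L.ep x := by
  rw [L.ep_flip, L.flip_φ, L.em_φ, ← L.ep_flip]

theorem ep_rot (L : Leaf Γ X B) (a : O2) (x : X) : L.ep (L.rot a x) = L.ep x := by
  rw [L.ep_flip, L.flip_rot, L.em_rot, ← L.ep_flip]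

theorem ep_smul (L : Leaf Γ X B) (g : Γ) (x : X) : L.ep (g • x) = g • L.ep x := by
  rw [L.ep_flip, L.flip_smul, L.em_smul, ← L.ep_flip]

theorem ep_flip' (L : Leaf Γ X B) (x : X) : L.ep (L.flip x) = L.em x := by
  rw [L.ep_flip, L.flip_flip]

/-- The unstable holonomy: the frame `y` with `em y = em x`, `lv y = lv x` and `ep y = η`. -/
def hu (L : Leaf Γ X B) (η : B) (x : X) : X := L.flip (L.hol η (L.flip x))

theorem hu_em (L : Leaf Γ X B) {η : B} {x : X} (h : η ≠ L.em x) : L.em (hu L η x) = L.em x := by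
  unfold hu
  rw [← L.ep_flip, L.hol_ep _ _ (by rwa [ep_flip']), ep_flip']

theorem hu_ep (L : Leaf Γ X B) {η : B} {x : X} (h : η ≠ L.em x) : L.ep (hu L η x) = η := by
  unfold hu
  rw [ep_flip', L.hol_em _ _ (by rwa [ep_flip'])]

theorem hu_lv (L : Leaf Γ X B) {η : B} {x : X} (h : η ≠ L.em x) : L.lv (hu L η x) = L.lv x := by
  unfold hu
  rw [L.hol_lp _ _ (by rwa [ep_flip']), L.flip_flip]

/-- the pairs `(ξ, x)` with `ξ ≠ ep x` -/
abbrev Hp (L : Leaf Γ X B) : Set (B × X) := {p | p.1 ≠ L.ep p.2}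

theorem isOpen_Hp (L : Leaf Γ X B) : IsOpen (Hp L) :=
  isOpen_ne_fun continuous_fst ((ep_cont L).comp continuous_snd)

theorem hu_cont (L : Leaf Γ X B) (η : B) : ContinuousOn (hu L η) {x | L.em x ≠ η} := by
  unfold hu
  refine L.flip_cont.comp_continuousOn ?_
  exact L.hol_cont.comp (f := fun x => (η, L.flip x))
    (continuous_const.prodMk L.flip_cont).continuousOn
    (fun x hx => by
      change η ≠ L.ep (L.flip x)
      rw [ep_flip']
      exact fun h => hx h.symm)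

/-- Openness of the end point map. -/
theorem exists_nhds_pair (L : Leaf Γ X B) {W : Set X} (hW : IsOpen W) {x : X} (hx : x ∈ W) :
    ∃ O : Set (B × B), IsOpen O ∧ (L.em x, L.ep x) ∈ O ∧
      ∀ p ∈ O, ∃ y ∈ W, L.em y = p.1 ∧ L.ep y = p.2 := by
  have hdiag : IsOpen {p : B × B | p.1 ≠ p.2} := isOpen_ne_fun continuous_fst continuous_snd
  obtain ⟨K, hK, hxK, hKd⟩ := exists_compact_subset hdiag
    (show (L.em x, L.ep x) ∈ {p : B × B | p.1 ≠ p.2} from L.em_ne_ep x)
  set S : Set X := ⋃ a : O2, L.rot a ⁻¹' W with hS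
  have hSo : IsOpen S := isOpen_iUnion fun a => hW.preimage (L.rot_cont a)
  set Z : Set X := {y | (L.em y, L.ep y) ∈ K ∧ |L.lv y| ≤ |L.lv x|} ∩ {y | L.lv y = L.lv x} ∩ Sᶜ
    with hZ
  have hZc : IsCompact Z := ((L.hopf_proper K hK (fun p hp => hKd hp) |L.lv x|).inter_right
    (isClosed_eq L.lv_cont continuous_const)).inter_right hSo.isClosed_compl
  set q : X → B × B := fun y => (L.em y, L.ep y) with hq
  have hqc : Continuous q := L.em_cont.prodMk (ep_cont L)
  have hcl : IsClosed (q '' Z) := (hZc.image hqc).isClosed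
  refine ⟨interior K ∩ (q '' Z)ᶜ, isOpen_interior.inter hcl.isOpen_compl, ⟨hxK, ?_⟩, ?_⟩
  · rintro ⟨y, ⟨⟨-, hy1⟩, hy2⟩, hy3⟩
    obtain ⟨a, ha⟩ := L.frame_unique y x (congrArg Prod.fst hy3) (congrArg Prod.snd hy3) hy1
    refine hy2 (mem_iUnion.2 ⟨a, ?_⟩)
    rw [mem_preimage, ← ha]
    exact hx
  · rintro ⟨ξ, η⟩ ⟨h1, h2⟩
    have h3 : (ξ, η) ∈ K := interior_subset h1
    obtain ⟨y, hy1, hy2, hy3⟩ := L.exists_frame ξ η (hKd h3) (L.lv x)
    have h4 : y ∈ S := by
      by_contra hcon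
      refine h2 ⟨y, ⟨⟨⟨?_, by rw [hy3]⟩, hy3⟩, hcon⟩, ?_⟩
      · rw [hy1, hy2]; exact h3
      · simp only [hq, hy1, hy2]
    obtain ⟨a, ha⟩ := mem_iUnion.1 h4
    exact ⟨L.rot a y, ha, by rw [L.em_rot, hy1], by rw [ep_rot, hy2]⟩

/-- Hölder continuity. -/
def Hold (W : X → ℝ) : Prop := ∃ C α : ℝ, 0 < α ∧ ∀ x y, |W x - W y| ≤ C * dist x y ^ α

/-- The difference along an asymptotic pair. -/
def dS (L : Leaf Γ X B) (W : X → ℝ) (p : B × X) (t : ℝ) : ℝ :=
  W (L.φ t p.2) - W (L.φ t (L.hol p.1 p.2))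

/-- The convergent integral along an asymptotic pair. -/
def ES (L : Leaf Γ X B) (W : X → ℝ) (p : B × X) : ℝ := ∫ t in Ioi (0 : ℝ), dS L W p t

theorem dS_cont (L : Leaf Γ X B) {W : X → ℝ} (hW : Continuous W) :
    Continuous fun q : Hp L × ℝ => dS L W q.1 q.2 := by
  have h1 : Continuous fun p : Hp L => L.hol p.1.1 p.1.2 :=
    continuousOn_iff_continuous_domRestrict.1 L.hol_cont
  have h2 : Continuous fun q : Hp L × ℝ => ((q.2, (q.1 : B × X).2) : ℝ × X) :=
    continuous_snd.prodMk (continuous_snd.comp (continuous_subtype_val.comp continuous_fst))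
  have h3 : Continuous fun q : Hp L × ℝ =>
      ((q.2, L.hol (q.1 : B × X).1 (q.1 : B × X).2) : ℝ × X) :=
    continuous_snd.prodMk (h1.comp continuous_fst)
  exact (hW.comp (L.φ_cont.comp h2)).sub (hW.comp (L.φ_cont.comp h3))

theorem dS_bound (L : Leaf Γ X B) {W : X → ℝ} (hW : Hold W) {K : Set (B × X)} (hK : IsCompact K)
    (hKH : K ⊆ Hp L) : ∃ A β : ℝ, 0 < β ∧ ∀ p ∈ K, ∀ t ≥ 0, |dS L W p t| ≤ A * Real.exp (-β * t) := by
  obtain ⟨C, α, hα, hC⟩ := hW
  obtain ⟨D, hD⟩ := L.hol_asym K hK hKH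
  have hC' : ∀ x y, |W x - W y| ≤ |C| * dist x y ^ α := fun x y =>
    (hC x y).trans (mul_le_mul_of_nonneg_right (le_abs_self C)
      (Real.rpow_nonneg dist_nonneg _))
  refine ⟨|C| * |D| ^ α, L.χ * α, mul_pos L.χ_pos hα, fun p hp t ht => ?_⟩
  have h1 := hD p hp t ht
  have h2 : D * Real.exp (-L.χ * t) ≤ |D| * Real.exp (-L.χ * t) :=
    mul_le_mul_of_nonneg_right (le_abs_self D) (Real.exp_pos _).le
  have h3 : dist (L.φ t p.2) (L.φ t (L.hol p.1 p.2)) ^ α ≤
      (|D| * Real.exp (-L.χ * t)) ^ α :=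
    Real.rpow_le_rpow dist_nonneg (h1.trans h2) hα.le
  have h4 : (|D| * Real.exp (-L.χ * t)) ^ α = |D| ^ α * Real.exp (-(L.χ * α) * t) := by
    rw [Real.mul_rpow (abs_nonneg D) (Real.exp_pos _).le, ← Real.exp_mul]
    congr 2; ring
  unfold dS
  refine (hC' _ _).trans ?_
  rw [mul_assoc, ← h4]
  exact mul_le_mul_of_nonneg_left h3 (abs_nonneg C)

theorem dS_meas (L : Leaf Γ X B) {W : X → ℝ} (hWc : Continuous W) (p : Hp L) :
    Continuous fun t => dS L W p t :=
  (dS_cont L hWc).comp (continuous_const.prodMk continuous_id)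

theorem dS_int (L : Leaf Γ X B) {W : X → ℝ} (hWc : Continuous W) (hW : Hold W) (p : Hp L) (a : ℝ)
    (ha : 0 ≤ a) : IntegrableOn (fun t => dS L W p t) (Ioi a) := by
  obtain ⟨A, β, hβ, hA⟩ := dS_bound L hW (isCompact_singleton (x := (p : B × X)))
    (singleton_subset_iff.2 p.2)
  refine Integrable.mono' (g := fun t => A * Real.exp (-β * t))
    ((exp_neg_integrableOn_Ioi a hβ).const_mul A)
    (dS_meas L hWc p).aestronglyMeasurable ?_
  filter_upwards [ae_restrict_mem measurableSet_Ioi] with t ht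
  exact hA p rfl t (ha.trans (mem_Ioi.1 ht).le)

theorem ES_sub (L : Leaf Γ X B) {W : X → ℝ} (hWc : Continuous W) (hW : Hold W) (p : Hp L)
    {T : ℝ} (hT : 0 ≤ T) : ES L W p - ∫ t in (0 : ℝ)..T, dS L W p t =
      ∫ t in Ioi T, dS L W p t := by
  have h1 := dS_int L hWc hW p 0 le_rfl
  rw [intervalIntegral.integral_of_le hT]
  have h2 : Ioi (0 : ℝ) = Ioc 0 T ∪ Ioi T := (Ioc_union_Ioi_eq_Ioi hT).symm
  unfold ES
  rw [h2, setIntegral_union (Set.Ioc_disjoint_Ioi le_rfl) measurableSet_Ioi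
    (h1.mono_set Ioc_subset_Ioi_self) (h1.mono_set (Ioi_subset_Ioi hT))]
  ring

theorem ES_tail (L : Leaf Γ X B) {W : X → ℝ} {p : Hp L} {A β : ℝ} (hβ : 0 < β)
    (hA : ∀ t ≥ 0, |dS L W p t| ≤ A * Real.exp (-β * t)) {T : ℝ} (hT : 0 ≤ T) :
    |∫ t in Ioi T, dS L W p t| ≤ A / β * Real.exp (-β * T) := by
  have h1 : ‖∫ t in Ioi T, dS L W p t‖ ≤ ∫ t in Ioi T, A * Real.exp (-β * t) := by
    apply norm_integral_le_of_norm_le ((exp_neg_integrableOn_Ioi T hβ).const_mul A)
    filter_upwards [ae_restrict_mem measurableSet_Ioi] with t ht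
    exact hA t (hT.trans (mem_Ioi.1 ht).le)
  rw [Real.norm_eq_abs] at h1
  refine h1.trans (le_of_eq ?_)
  rw [integral_const_mul]
  have h2 := integral_exp_mul_Ioi (a := -β) (by linarith) T
  rw [h2]
  field_simp

theorem ES_tendsto (L : Leaf Γ X B) {W : X → ℝ} (hWc : Continuous W) (hW : Hold W) (p : Hp L) :
    Tendsto (fun T => ∫ t in (0 : ℝ)..T, dS L W p t) atTop (𝓝 (ES L W p)) := by
  have h1 := dS_int L hWc hW p 0 le_rfl
  exact intervalIntegral_tendsto_integral_Ioi 0 h1 tendsto_id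

theorem ES_cont (L : Leaf Γ X B) {W : X → ℝ} (hWc : Continuous W) (hW : Hold W) :
    Continuous fun p : Hp L => ES L W p := by
  have : LocallyCompactSpace (Hp L) := (isOpen_Hp L).locallyCompactSpace
  have hF : ∀ n : ℕ, Continuous fun p : Hp L => ∫ t in (0 : ℝ)..n, dS L W p t := fun n =>
    intervalIntegral.continuous_parametric_intervalIntegral_of_continuous' (dS_cont L hWc) 0 n
  have hlu : TendstoLocallyUniformly (fun (n : ℕ) (p : Hp L) => ∫ t in (0 : ℝ)..n, dS L W p t)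
      (fun p : Hp L => ES L W p) atTop := by
    rw [tendstoLocallyUniformly_iff_forall_isCompact]
    intro K hK
    obtain ⟨A, β, hβ, hA⟩ := dS_bound L hW (hK.image continuous_subtype_val)
      (by rintro _ ⟨p, -, rfl⟩; exact p.2)
    rw [Metric.tendstoUniformlyOn_iff]
    intro ε hε
    have h1 : Tendsto (fun n : ℕ => A / β * Real.exp (-β * n)) atTop (𝓝 0) := by
      have h2 : Tendsto (fun n : ℕ => Real.exp (-β * n)) atTop (𝓝 0) := by
        refine Real.tendsto_exp_atBot.comp ?_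
        exact (tendsto_natCast_atTop_atTop).const_mul_atTop_of_neg (by linarith)
      simpa using h2.const_mul (A / β)
    filter_upwards [h1.eventually (gt_mem_nhds hε)] with n hn p hp
    rw [Real.dist_eq, ES_sub L hWc hW p (Nat.cast_nonneg n)]
    exact (ES_tail L hβ (hA p ⟨p, hp, rfl⟩) (Nat.cast_nonneg n)).trans_lt hn
  exact hlu.continuous (Frequently.of_forall hF)

end Vale.Agent.P207.N3.H732
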