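import Mathlib

/-!
# P207, dimension 3, P2-L: null sets of a disintegrated measure
-/

open Set Filter Topology MeasureTheory
open scoped ENNReal NNReal BoundedContinuousFunction

noncomputable section

namespace Vale.Agent.P207.N3.H732

variable {P X : Type*} [TopologicalSpace P] [MeasurableSpace P] [BorelSpace P]
  [HasOuterApproxClosed P] [MeasurableSpace X]

theorem measurable_of_bcf (σ : X → Measure P) [∀ x, IsProbabilityMeasure (σ x)]
    (hmeas : ∀ f : P →ᵇ ℝ≥0, Measurable fun x => ∫⁻ p, f p ∂σ x) : Measurable σ := by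
  refine Measurable.measure_of_isPiSystem_of_isProbabilityMeasure
    (S := {s | IsClosed s}) ?_ isPiSystem_isClosed ?_
  · rw [BorelSpace.measurable_eq (α := P)]
    exact borel_eq_generateFrom_isClosed
  · intro F hF
    have h1 : ∀ x, Tendsto (fun n => ∫⁻ p, IsClosed.apprSeq hF n p ∂σ x) atTop (𝓝 (σ x F)) :=
      fun x => HasOuterApproxClosed.tendsto_lintegral_apprSeq hF (σ x)
    exact measurable_of_tendsto_metrizable (fun n => hmeas _) (tendsto_pi_nhds.2 h1)

theorem bind_eq {μ : Measure X} [IsFiniteMeasure μ] {m : Measure P} [IsFiniteMeasure m]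
    (σ : X → Measure P) [∀ x, IsProbabilityMeasure (σ x)]
    (hmeas : ∀ f : P →ᵇ ℝ≥0, Measurable fun x => ∫⁻ p, f p ∂σ x)
    (hint : ∀ f : P →ᵇ ℝ≥0, ∫⁻ p, f p ∂m = ∫⁻ x, (∫⁻ p, f p ∂σ x) ∂μ) : m = μ.bind σ := by
  have hσ := measurable_of_bcf σ hmeas
  refine ext_of_forall_lintegral_eq_of_IsFiniteMeasure fun f => ?_
  rw [hint f, Measure.lintegral_bind hσ.aemeasurable]
  exact (measurable_coe_nnreal_ennreal.comp f.continuous.measurable).aemeasurable

/-- Null sets of a disintegrated measure. -/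
theorem ae_of_disint {μ : Measure X} [IsFiniteMeasure μ] {m : Measure P} [IsFiniteMeasure m]
    (σ : X → Measure P) [∀ x, IsProbabilityMeasure (σ x)]
    (hmeas : ∀ f : P →ᵇ ℝ≥0, Measurable fun x => ∫⁻ p, f p ∂σ x)
    (hint : ∀ f : P →ᵇ ℝ≥0, ∫⁻ p, f p ∂m = ∫⁻ x, (∫⁻ p, f p ∂σ x) ∂μ)
    {G : Set P} (hGae : ∀ᵐ p ∂m, p ∈ G) : ∀ᵐ x ∂μ, ∀ᵐ p ∂σ x, p ∈ G := by
  have hσ := measurable_of_bcf σ hmeas
  rw [bind_eq σ hmeas hint] at hGae
  exact Measure.ae_ae_of_ae_bind hσ.aemeasurable hGae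

end Vale.Agent.P207.N3.H732
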