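import Mathlib

/-!
# P207, dimension 3: Hölder continuity of the unstable Riccati solution

`U` is a bounded positive solution of `U' = K - U ^ 2` along the orbits of a flow `Φ` on a metric
space, `K` is Lipschitz and `Φ (-t)` is Lipschitz with constant `A e ^ {L t}`. Then `U` is Hölder
continuous.
-/

open Set Filter Topology Matrix

noncomputable section

namespace Vale.Agent.P207.N3.H732

variable {κ : Type*} [Fintype κ]

/-- sum of the squares of the entries -/
def sq2 (W : Matrix κ κ ℝ) : ℝ := ∑ i, ∑ j, W i j ^ 2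

theorem quad_left {U W : Matrix κ κ ℝ} {lam : ℝ}
    (pU : ∀ x, lam * (x ⬝ᵥ x) ≤ x ⬝ᵥ (U *ᵥ x)) :
    lam * sq2 W ≤ ∑ i, ∑ j, W i j * (U * W) i j := by
  have h2 : ∑ i, ∑ j, W i j * (U * W) i j =
      ∑ j, (fun i => W i j) ⬝ᵥ (U *ᵥ fun i => W i j) := by
    rw [Finset.sum_comm]
    rfl
  have h3 : lam * sq2 W = ∑ j, lam * ((fun i => W i j) ⬝ᵥ (fun i => W i j)) := by
    rw [← Finset.mul_sum]
    congr 1
    unfold sq2
    rw [Finset.sum_comm]
    simp only [dotProduct, pow_two]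
  rw [h2, h3]
  exact Finset.sum_le_sum fun j _ => pU _

theorem quad_right {V W : Matrix κ κ ℝ} {lam : ℝ}
    (pV : ∀ x, lam * (x ⬝ᵥ x) ≤ x ⬝ᵥ (V *ᵥ x)) :
    lam * sq2 W ≤ ∑ i, ∑ j, W i j * (W * V) i j := by
  have h2 : ∑ i, ∑ j, W i j * (W * V) i j = ∑ i, (W i) ⬝ᵥ (V *ᵥ (W i)) := by
    refine Finset.sum_congr rfl fun i _ => ?_
    simp only [dotProduct, mul_apply, mulVec, Finset.mul_sum]
    rw [Finset.sum_comm]
    refine Finset.sum_congr rfl fun k _ => Finset.sum_congr rfl fun l _ => ?_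
    ring
  have h3 : lam * sq2 W = ∑ i, lam * ((W i) ⬝ᵥ (W i)) := by
    rw [← Finset.mul_sum]
    congr 1
    unfold sq2
    simp only [dotProduct, pow_two]
  rw [h2, h3]
  exact Finset.sum_le_sum fun j _ => pV _

/-- **Comparison of two bounded positive solutions of the Riccati equation.** -/
theorem ric_cmp {U V K₁ K₂ : ℝ → Matrix κ κ ℝ} {lam B δ T : ℝ} (hlam : 0 < lam) (hT : 0 ≤ T)
    (hU : ∀ i j t, HasDerivAt (fun s => U s i j) (K₁ t i j - (U t * U t) i j) t)
    (hV : ∀ i j t, HasDerivAt (fun s => V s i j) (K₂ t i j - (V t * V t) i j) t)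
    (pU : ∀ t x, lam * (x ⬝ᵥ x) ≤ x ⬝ᵥ (U t *ᵥ x))
    (pV : ∀ t x, lam * (x ⬝ᵥ x) ≤ x ⬝ᵥ (V t *ᵥ x))
    (bU : ∀ t i j, |U t i j| ≤ B) (bV : ∀ t i j, |V t i j| ≤ B)
    (hK : ∀ t ∈ Icc (-T) 0, ∀ i j, |K₁ t i j - K₂ t i j| ≤ δ) (i j : κ) :
    (U 0 i j - V 0 i j) ^ 2 ≤ (Fintype.card κ : ℝ) ^ 2 *
      (4 * B ^ 2 * Real.exp (-(2 * lam) * T) + δ ^ 2 / (4 * lam ^ 2)) := by
  set N : ℝ := (Fintype.card κ : ℝ) with hN
  set W : ℝ → Matrix κ κ ℝ := fun t => U t - V t with hW
  have hWd : ∀ i j t, HasDerivAt (fun s => W s i j)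
      (K₁ t i j - K₂ t i j - (U t * W t + W t * V t) i j) t := by
    intro i j t
    refine ((hU i j t).sub (hV i j t)).congr_deriv ?_
    have : U t * U t - V t * V t = U t * W t + W t * V t := by
      simp only [hW]; noncomm_ring
    rw [← this, Matrix.sub_apply]
    ring
  set E : ℝ → ℝ := fun t => sq2 (W t) with hE
  have hEd : ∀ t, HasDerivAt E
      (∑ i, ∑ j, 2 * W t i j * (K₁ t i j - K₂ t i j - (U t * W t + W t * V t) i j)) t := by
    intro t
    refine HasDerivAt.fun_sum fun i _ => HasDerivAt.fun_sum fun j _ => ?_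
    refine ((hWd i j t).pow 2).congr_deriv ?_
    simp
  set c : ℝ := N ^ 2 * (δ ^ 2 / (2 * lam)) with hc
  have hsum : ∀ t ∈ Icc (-T) 0, ∑ i, ∑ j, 2 * W t i j * (K₁ t i j - K₂ t i j) ≤
      2 * lam * E t + c := by
    intro t ht
    have h1 : ∀ i j, 2 * W t i j * (K₁ t i j - K₂ t i j) ≤
        2 * lam * W t i j ^ 2 + δ ^ 2 / (2 * lam) := by
      intro i j
      have h2 : (K₁ t i j - K₂ t i j) ^ 2 ≤ δ ^ 2 := by
        have := hK t ht i j
        rw [← sq_abs]
        exact pow_le_pow_left₀ (abs_nonneg _) this 2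
      have h3 : (K₁ t i j - K₂ t i j) ^ 2 / (2 * lam) ≤ δ ^ 2 / (2 * lam) := by gcongr
      have h4 : 2 * W t i j * (K₁ t i j - K₂ t i j) ≤
          2 * lam * W t i j ^ 2 + (K₁ t i j - K₂ t i j) ^ 2 / (2 * lam) := by
        have h5 : 2 * lam * W t i j ^ 2 + (K₁ t i j - K₂ t i j) ^ 2 / (2 * lam) -
            2 * W t i j * (K₁ t i j - K₂ t i j) =
            (2 * lam * W t i j - (K₁ t i j - K₂ t i j)) ^ 2 / (2 * lam) := by
          field_simp; ring
        have h6 : 0 ≤ (2 * lam * W t i j - (K₁ t i j - K₂ t i j)) ^ 2 / (2 * lam) := by positivity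
        linarith
      linarith
    calc ∑ i, ∑ j, 2 * W t i j * (K₁ t i j - K₂ t i j)
        ≤ ∑ i, ∑ j, (2 * lam * W t i j ^ 2 + δ ^ 2 / (2 * lam)) :=
          Finset.sum_le_sum fun i _ => Finset.sum_le_sum fun j _ => h1 i j
      _ = 2 * lam * E t + c := by
          simp only [Finset.sum_add_distrib, ← Finset.mul_sum, Finset.sum_const,
            Finset.card_univ, nsmul_eq_mul, hE, sq2, hc, hN]
          ring
  have hle : ∀ t ∈ Icc (-T) 0,
      (∑ i, ∑ j, 2 * W t i j * (K₁ t i j - K₂ t i j - (U t * W t + W t * V t) i j)) ≤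
        -(2 * lam) * E t + c := by
    intro t ht
    have h1 := quad_left (W := W t) (pU t)
    have h2 := quad_right (W := W t) (pV t)
    have h3 := hsum t ht
    have h4 : (∑ i, ∑ j, 2 * W t i j * (K₁ t i j - K₂ t i j - (U t * W t + W t * V t) i j)) =
        ∑ i, ∑ j, 2 * W t i j * (K₁ t i j - K₂ t i j) -
        2 * ((∑ i, ∑ j, W t i j * (U t * W t) i j) + ∑ i, ∑ j, W t i j * (W t * V t) i j) := by
      rw [← Finset.sum_add_distrib, Finset.mul_sum, ← Finset.sum_sub_distrib]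
      refine Finset.sum_congr rfl fun i _ => ?_
      rw [← Finset.sum_add_distrib, Finset.mul_sum, ← Finset.sum_sub_distrib]
      refine Finset.sum_congr rfl fun j _ => ?_
      rw [Matrix.add_apply]
      ring
    rw [h4]
    have h5 : lam * sq2 (W t) = lam * E t := rfl
    rw [h5] at h1 h2
    linarith
  set F : ℝ → ℝ := fun t => (E t - c / (2 * lam)) * Real.exp (2 * lam * t) with hF
  have hFd : ∀ t, HasDerivAt F
      ((∑ i, ∑ j, 2 * W t i j * (K₁ t i j - K₂ t i j - (U t * W t + W t * V t) i j)) *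
      Real.exp (2 * lam * t) + (E t - c / (2 * lam)) * (Real.exp (2 * lam * t) * (2 * lam))) t := by
    intro t
    refine ((hEd t).sub_const _).mul ?_
    have := ((hasDerivAt_id t).const_mul (2 * lam)).exp
    simpa using this
  have hanti : AntitoneOn F (Icc (-T) 0) := by
    apply antitoneOn_of_deriv_nonpos (convex_Icc _ _)
    · exact fun t _ => (hFd t).continuousAt.continuousWithinAt
    · exact fun t _ => (hFd t).differentiableAt.differentiableWithinAt
    · intro t ht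
      rw [interior_Icc] at ht
      rw [(hFd t).deriv]
      have h1 := mul_le_mul_of_nonneg_right (hle t (Ioo_subset_Icc_self ht))
        (Real.exp_pos (2 * lam * t)).le
      have h2 : (E t - c / (2 * lam)) * (Real.exp (2 * lam * t) * (2 * lam)) =
          (2 * lam * E t - c) * Real.exp (2 * lam * t) := by
        field_simp
      rw [h2]
      linarith [h1]
  have h0 := hanti (left_mem_Icc.2 (by linarith)) (right_mem_Icc.2 (by linarith))
    (show -T ≤ 0 by linarith)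
  simp only [hF, mul_zero, Real.exp_zero, mul_one] at h0
  have hET : E (-T) ≤ N ^ 2 * (4 * B ^ 2) := by
    have h1 : ∀ i j, W (-T) i j ^ 2 ≤ 4 * B ^ 2 := by
      intro i j
      have h2 : |W (-T) i j| ≤ 2 * B := by
        simp only [hW, Matrix.sub_apply]
        refine (abs_sub _ _).trans ?_
        linarith [bU (-T) i j, bV (-T) i j]
      rw [← sq_abs]
      nlinarith [abs_nonneg (W (-T) i j)]
    calc E (-T) ≤ ∑ _i : κ, ∑ _j : κ, 4 * B ^ 2 :=
          Finset.sum_le_sum fun i _ => Finset.sum_le_sum fun j _ => h1 i j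
      _ = N ^ 2 * (4 * B ^ 2) := by
          simp only [Finset.sum_const, Finset.card_univ, nsmul_eq_mul, hN]; ring
  have hc0 : 0 ≤ c / (2 * lam) := by positivity
  have hexp : 2 * lam * -T = -(2 * lam) * T := by ring
  have h1 : E 0 ≤ N ^ 2 * (4 * B ^ 2) * Real.exp (-(2 * lam) * T) + c / (2 * lam) := by
    have h2 : (E (-T) - c / (2 * lam)) * Real.exp (2 * lam * -T) ≤
        N ^ 2 * (4 * B ^ 2) * Real.exp (-(2 * lam) * T) := by
      rw [hexp]
      exact mul_le_mul_of_nonneg_right (by linarith) (Real.exp_pos _).le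
    linarith
  have h2 : (U 0 i j - V 0 i j) ^ 2 ≤ E 0 := by
    have h3 : W 0 i j ^ 2 ≤ ∑ j, W 0 i j ^ 2 :=
      Finset.single_le_sum (f := fun j => W 0 i j ^ 2) (fun _ _ => sq_nonneg _)
        (Finset.mem_univ j)
    have h4 : ∑ j, W 0 i j ^ 2 ≤ E 0 :=
      Finset.single_le_sum (f := fun i => ∑ j, W 0 i j ^ 2)
        (fun _ _ => Finset.sum_nonneg fun _ _ => sq_nonneg _) (Finset.mem_univ i)
    exact h3.trans h4
  refine h2.trans (h1.trans (le_of_eq ?_))
  simp only [hc]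
  field_simp
  ring

/-- From the Lipschitz constant of the maps `Φ (-t)`, `0 ≤ t ≤ 1`, to all times. -/
theorem lip_all {Z : Type*} [PseudoMetricSpace Z] {Φ : ℝ → Z → Z} (hzero : ∀ z, Φ 0 z = z)
    (hadd : ∀ s t z, Φ (s + t) z = Φ s (Φ t z)) {A : ℝ} (hA1 : 1 ≤ A)
    (hA : ∀ t ∈ Icc (0 : ℝ) 1, ∀ z z', dist (Φ (-t) z) (Φ (-t) z') ≤ A * dist z z') :
    ∀ t ≥ 0, ∀ z z', dist (Φ (-t) z) (Φ (-t) z') ≤
      A * Real.exp (Real.log A * t) * dist z z' := by
  have hA0 : 0 < A := by linarith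
  have hn : ∀ n : ℕ, ∀ z z', dist (Φ (-(n : ℝ)) z) (Φ (-(n : ℝ)) z') ≤
      A ^ n * dist z z' := by
    intro n
    induction n with
    | zero =>
      intro z z'
      simp [hzero]
    | succ n ih =>
      intro z z'
      have h1 : -((n + 1 : ℕ) : ℝ) = -1 + -(n : ℝ) := by push_cast; ring
      rw [h1, hadd, hadd]
      refine (hA 1 ⟨zero_le_one, le_rfl⟩ _ _).trans ?_
      rw [pow_succ', mul_assoc]
      exact mul_le_mul_of_nonneg_left (ih z z') hA0.le
  intro t ht z z'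
  set n := ⌊t⌋₊ with hndef
  have hnt : (n : ℝ) ≤ t := Nat.floor_le ht
  have hnt' : t < n + 1 := Nat.lt_floor_add_one t
  have hexp : A ^ n ≤ Real.exp (Real.log A * t) := by
    rw [← Real.exp_log (pow_pos hA0 n), Real.log_pow]
    apply Real.exp_le_exp.2
    rw [mul_comm]
    exact mul_le_mul_of_nonneg_left hnt (Real.log_nonneg hA1)
  have h1 : -t = -(t - n) + -(n : ℝ) := by ring
  rw [h1, hadd, hadd]
  refine (hA (t - n) ⟨by linarith, by linarith⟩ _ _).trans ?_
  rw [mul_assoc]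
  exact mul_le_mul_of_nonneg_left
    ((hn n z z').trans (mul_le_mul_of_nonneg_right hexp dist_nonneg)) hA0.le

/-- **Hölder continuity of the unstable Riccati solution.** -/
theorem hold_of_riccati {Z : Type*} [MetricSpace Z] {Φ : ℝ → Z → Z} {A L CK lam B : ℝ}
    (hzero : ∀ z, Φ 0 z = z) (hL : 0 ≤ L) (hA : 0 ≤ A)
    (hΦ : ∀ t ≥ 0, ∀ z z', dist (Φ (-t) z) (Φ (-t) z') ≤ A * Real.exp (L * t) * dist z z')
    {K U : Z → Matrix κ κ ℝ} (hCK : 0 ≤ CK)
    (hK : ∀ z z' i j, |K z i j - K z' i j| ≤ CK * dist z z') (hlam : 0 < lam)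
    (lo : ∀ z x, lam * (x ⬝ᵥ x) ≤ x ⬝ᵥ (U z *ᵥ x)) (bd : ∀ z i j, |U z i j| ≤ B)
    (ric : ∀ z r i j, HasDerivAt (fun s => U (Φ s z) i j)
      (K (Φ r z) i j - (U (Φ r z) * U (Φ r z)) i j) r) :
    ∃ C α : ℝ, 0 ≤ C ∧ 0 < α ∧ α ≤ 1 ∧
      ∀ z z' i j, |U z i j - U z' i j| ≤ C * dist z z' ^ α := by
  set N : ℝ := (Fintype.card κ : ℝ) with hN
  have hN0 : 0 ≤ N := Nat.cast_nonneg _
  set α : ℝ := lam / (L + lam) with hα
  have hLl : 0 < L + lam := by linarith
  have hα0 : 0 < α := div_pos hlam hLl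
  have hα1 : α ≤ 1 := by rw [hα, div_le_one hLl]; linarith
  set Q : ℝ := 4 * B ^ 2 + (CK * A) ^ 2 / (4 * lam ^ 2) with hQ
  have hQ0 : 0 ≤ Q := by positivity
  set C : ℝ := N * Real.sqrt Q + 2 * |B| with hC
  have hC0 : 0 ≤ C := by positivity
  refine ⟨C, α, hC0, hα0, hα1, fun z z' i j => ?_⟩
  set d := dist z z' with hd
  have hd0 : 0 ≤ d := dist_nonneg
  have hB2 : |U z i j - U z' i j| ≤ 2 * |B| := by
    refine (abs_sub _ _).trans ?_
    have h1 := bd z i j
    have h2 := bd z' i j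
    have h3 := le_abs_self B
    linarith
  rcases hd0.eq_or_lt with h0 | hpos
  · have : z = z' := dist_eq_zero.1 (by rw [← hd, ← h0])
    subst this
    rw [sub_self, abs_zero]
    exact mul_nonneg hC0 (Real.rpow_nonneg hd0 _)
  rcases le_or_gt 1 d with h1 | h1
  · have h2 : 1 ≤ d ^ α := Real.one_le_rpow h1 hα0.le
    calc |U z i j - U z' i j| ≤ 2 * |B| := hB2
      _ ≤ C * 1 := by rw [hC]; nlinarith [mul_nonneg hN0 (Real.sqrt_nonneg Q)]
      _ ≤ C * d ^ α := mul_le_mul_of_nonneg_left h2 hC0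
  -- the main case
  set T : ℝ := -Real.log d / (L + lam) with hT
  have hlogd : Real.log d < 0 := Real.log_neg hpos h1
  have hT0 : 0 ≤ T := div_nonneg (by linarith) hLl.le
  set δ : ℝ := CK * (A * Real.exp (L * T) * d) with hδ
  have hexp1 : Real.exp (-lam * T) = d ^ α := by
    rw [Real.rpow_def_of_pos hpos, hT, hα]
    congr 1
    field_simp
  have hexp2 : Real.exp (L * T) * d = d ^ α := by
    rw [Real.rpow_def_of_pos hpos]
    have e1 : Real.exp (L * T) * d = Real.exp (L * T + Real.log d) := by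
      rw [Real.exp_add, Real.exp_log hpos]
    rw [e1, hT, hα]
    congr 1
    field_simp
    ring
  have hδ' : δ = CK * A * d ^ α := by
    rw [hδ, mul_assoc A, hexp2]; ring
  have h2 := ric_cmp (U := fun s => U (Φ s z)) (V := fun s => U (Φ s z'))
    (K₁ := fun s => K (Φ s z)) (K₂ := fun s => K (Φ s z')) (B := B) (δ := δ) (T := T) hlam hT0
    (fun i j t => ric z t i j) (fun i j t => ric z' t i j) (fun t x => lo _ x)
    (fun t x => lo _ x) (fun t i j => bd _ i j) (fun t i j => bd _ i j) (by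
      intro t ht i j
      refine (hK _ _ i j).trans ?_
      rw [hδ]
      refine mul_le_mul_of_nonneg_left ?_ hCK
      have h3 := hΦ (-t) (by linarith [ht.2]) z z'
      rw [neg_neg] at h3
      refine h3.trans (mul_le_mul_of_nonneg_right (mul_le_mul_of_nonneg_left ?_ hA) hd0)
      exact Real.exp_le_exp.2 (mul_le_mul_of_nonneg_left (by linarith [ht.1]) hL)) i j
  simp only [hzero] at h2
  have h3 : Real.exp (-(2 * lam) * T) = (d ^ α) ^ 2 := by
    rw [← hexp1, ← Real.exp_nat_mul]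
    congr 1; push_cast; ring
  have h4 : (U z i j - U z' i j) ^ 2 ≤ (N * Real.sqrt Q * d ^ α) ^ 2 := by
    refine h2.trans (le_of_eq ?_)
    rw [h3, hδ', mul_pow (N * Real.sqrt Q), mul_pow N, Real.sq_sqrt hQ0, hQ]
    ring
  have h5 : 0 ≤ N * Real.sqrt Q * d ^ α :=
    mul_nonneg (mul_nonneg hN0 (Real.sqrt_nonneg _)) (Real.rpow_nonneg hd0 _)
  have h6 : |U z i j - U z' i j| ≤ N * Real.sqrt Q * d ^ α := by
    rw [← abs_of_nonneg h5]
    exact sq_le_sq.1 h4
  refine h6.trans (mul_le_mul_of_nonneg_right ?_ (Real.rpow_nonneg hd0 _))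
  rw [hC]
  have := abs_nonneg B
  linarith

end Vale.Agent.P207.N3.H732
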