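import Vale.Agent.P207.N3.H732.Liv

/-!
# P207, dimension 3, P2-L: from absolute continuity to `HopfAC` (Fubini)

`Q` is the space of foot points, `ω ξ q` the unit vector at `q` which points away from `ξ`.
-/

open Set Filter Topology Metric MeasureTheory

noncomputable section

namespace Vale.Agent.P207.N3.H732

variable {Γ X B : Type} [Group Γ] [MetricSpace X] [ProperSpace X] [MulAction Γ X]
  [IsIsometricSMul Γ X] [TopologicalSpace B] [CompactSpace B] [T2Space B] [MulAction Γ B]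
  [ContinuousConstSMul Γ B]

variable {Y Q : Type} [TopologicalSpace Y] [MeasurableSpace Y] [BorelSpace Y]
  [TopologicalSpace Q] [SecondCountableTopology Q] [MeasurableSpace Q] [BorelSpace Q]
  [MeasurableSpace B] [BorelSpace B]

/-- One order of the iterated statement. -/
theorem hopf_one {L : Leaf Γ X B} {ϕ : ℝ → Y → Y} {π : X → Y} (hπ : Factor L ϕ π)
    {m : Measure Y} {ν₀ : Measure B} [SFinite ν₀] {vol : Measure Q} [SFinite vol] {ft : X → Q}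
    {ω : B → Q → Y} (hωc : Continuous fun p : B × Q => ω p.1 p.2)
    (hω : ∀ x, ω (L.em x) (ft x) = π x)
    (H1 : ∀ G : Set Y, MeasurableSet G → (∀ᵐ v ∂m, v ∈ G) →
      ∀ᵐ q ∂vol, ∀ᵐ ξ ∂ν₀, ω ξ q ∈ G)
    (H2 : ∀ ξ (N : Set B), (∀ᵐ q ∂vol, ∀ x, L.em x = ξ → ft x = q → L.ep x ∉ N) →
      ∀ᵐ η ∂ν₀, η ∉ N) (G : Set Y) (hG : MeasurableSet G) (hGφ : ∀ t, ∀ v ∈ G, ϕ t v ∈ G)
    (hGae : ∀ᵐ v ∂m, v ∈ G) :
    ∀ᵐ ξ ∂ν₀, ∀ᵐ η ∂ν₀, ∀ x, L.em x = ξ → L.ep x = η → π x ∈ G := by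
  have hmeas : MeasurableSet {p : B × Q | ω p.1 p.2 ∈ G} := hωc.measurable hG
  have h1 : ∀ᵐ ξ ∂ν₀, ∀ᵐ q ∂vol, ω ξ q ∈ G := by
    rw [Measure.ae_ae_comm hmeas]
    exact H1 G hG hGae
  filter_upwards [h1] with ξ hξ
  have h2 := H2 ξ {η | ¬ ∀ x, L.em x = ξ → L.ep x = η → π x ∈ G} (by
    filter_upwards [hξ] with q hq x hx1 hx2 hx3
    apply hx3
    intro y hy1 hy2
    obtain ⟨a, ha⟩ := L.frame_unique (L.φ (L.lv y - L.lv x) x) y (by rw [L.em_φ, hx1, hy1])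
      (by rw [ep_φ, hy2]) (by rw [L.lv_φ]; ring)
    rw [ha, hπ.rot, hπ.φ]
    apply hGφ
    rw [← hω x, hx1, hx2]
    exact hq)
  filter_upwards [h2] with η hη
  by_contra hcon
  exact hη hcon

/-- **`HopfAC` from the two absolute continuity statements.** -/
theorem hopfAC {L : Leaf Γ X B} {ϕ : ℝ → Y → Y} {π : X → Y} (hπ : Factor L ϕ π)
    {m : Measure Y} {ν₀ : Measure B} [SFinite ν₀] {vol : Measure Q} [SFinite vol] {ft : X → Q}
    {ω : B → Q → Y} (hωc : Continuous fun p : B × Q => ω p.1 p.2)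
    (hω : ∀ x, ω (L.em x) (ft x) = π x) {flY : Y → Y} (hfl : ∀ x, π (L.flip x) = flY (π x))
    (hsurj : Function.Surjective π) (hflm : MeasurePreserving flY m m)
    (pos : ∀ U : Set B, IsOpen U → U.Nonempty → ν₀ U ≠ 0)
    (qi : ∀ g : Γ, (ν₀.map fun ξ => g • ξ) ≪ ν₀)
    (H1 : ∀ G : Set Y, MeasurableSet G → (∀ᵐ v ∂m, v ∈ G) →
      ∀ᵐ q ∂vol, ∀ᵐ ξ ∂ν₀, ω ξ q ∈ G)
    (H2 : ∀ ξ (N : Set B), (∀ᵐ q ∂vol, ∀ x, L.em x = ξ → ft x = q → L.ep x ∉ N) →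
      ∀ᵐ η ∂ν₀, η ∉ N) : HopfAC L ϕ π m ν₀ where
  pos := pos
  qi := qi
  hopf₁ := hopf_one hπ hωc hω H1 H2
  hopf₂ G hG hGφ hGae := by
    have hfφ : ∀ t v, flY (ϕ t v) = ϕ (-t) (flY v) := by
      intro t v
      obtain ⟨x, rfl⟩ := hsurj v
      rw [← hπ.φ, ← hfl, ← hfl, L.flip_φ, hπ.φ]
    have h1 := hopf_one hπ hωc hω H1 H2 (flY ⁻¹' G) (hflm.measurable hG)
      (fun t v hv => by
        change flY (ϕ t v) ∈ G
        rw [hfφ]
        exact hGφ _ _ hv)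
      (hflm.quasiMeasurePreserving.ae hGae)
    filter_upwards [h1] with η hη
    filter_upwards [hη] with ξ hξ x hx1 hx2
    have h2 : π (L.flip x) ∈ flY ⁻¹' G :=
      hξ (L.flip x) (by rw [← L.ep_flip, hx2]) (by rw [ep_flip', hx1])
    rw [hfl] at h2
    have h3 : flY (flY (π x)) = π x := by rw [← hfl, ← hfl, L.flip_flip]
    have h4 : flY (flY (π x)) ∈ G := h2
    rwa [h3] at h4

end Vale.Agent.P207.N3.H732
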