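import Vale.Agent.P207.N3.H348.Shell

/-!
# P207, dimension 3, P2-L: polar coordinates

`lintegral_polar`: polar coordinates of a euclidean space, for the lower integral.
`polE`: the polar coordinates of a diffeomorphism `E` of the space, as a structure `Polar`.
-/

open Set Filter Topology Metric MeasureTheory
open scoped ENNReal ContDiff

noncomputable section

namespace Vale.Agent.P207.N3.H732

open H348 (Polar)

variable {E : Type} [NormedAddCommGroup E] [NormedSpace ℝ E] [FiniteDimensional ℝ E]
  [MeasurableSpace E] [BorelSpace E] (μ : Measure E) [μ.IsAddHaarMeasure]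

/-- **polar coordinates** -/
theorem lintegral_polar [Nontrivial E] {H : E → ℝ≥0∞} (hH : Measurable H) :
    ∫⁻ w, H w ∂μ = ∫⁻ u : sphere (0 : E) 1, (∫⁻ s in Ioi (0 : ℝ),
      H (s • (u : E)) * ENNReal.ofReal (s ^ (Module.finrank ℝ E - 1))) ∂μ.toSphere := by
  set d := Module.finrank ℝ E - 1 with hd
  have h1 : ∫⁻ w, H w ∂μ = ∫⁻ w : ({(0 : E)}ᶜ : Set E), H w ∂(μ.comap Subtype.val) := by
    rw [lintegral_subtype_comap (measurableSet_singleton (0 : E)).compl H,
      restrict_compl_singleton]
  have hmp := μ.measurePreserving_homeomorphUnitSphereProd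
  have h2 : ∫⁻ w : ({(0 : E)}ᶜ : Set E), H w ∂(μ.comap Subtype.val) =
      ∫⁻ z, H ((z.2 : ℝ) • (z.1 : E)) ∂(μ.toSphere.prod (Measure.volumeIoiPow d)) := by
    rw [← hmp.lintegral_comp_emb (homeomorphUnitSphereProd E).measurableEmbedding]
    refine lintegral_congr fun w => ?_
    congr 1
    have h3 := congrArg (fun v : ({(0 : E)}ᶜ : Set E) => (v : E))
      ((homeomorphUnitSphereProd E).symm_apply_apply w)
    simp only [homeomorphUnitSphereProd_symm_apply_coe] at h3
    exact h3.symm
  have hm : Measurable fun z : sphere (0 : E) 1 × Ioi (0 : ℝ) => H ((z.2 : ℝ) • (z.1 : E)) :=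
    hH.comp ((measurable_subtype_coe.comp measurable_snd).smul
      (measurable_subtype_coe.comp measurable_fst))
  rw [h1, h2, lintegral_prod _ hm.aemeasurable]
  refine lintegral_congr fun u => ?_
  unfold Measure.volumeIoiPow
  have hm2 : Measurable fun s : Ioi (0 : ℝ) => H ((s : ℝ) • (u : E)) :=
    hm.comp measurable_prodMk_left
  rw [lintegral_withDensity_eq_lintegral_mul _ (by fun_prop) hm2]
  rw [← lintegral_subtype_comap measurableSet_Ioi
    (fun s : ℝ => H (s • (u : E)) * ENNReal.ofReal (s ^ d))]
  refine lintegral_congr fun s => ?_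
  simp only [Pi.mul_apply]
  rw [mul_comm]

/-- polar coordinates of a differentiable bijection -/
def polE [Nontrivial E] (F : E → E) (G : E → E) (hF : ContDiff ℝ ∞ F) (hG : Continuous G)
    (h1 : ∀ u, G (F u) = u) (h2 : ∀ q, F (G q) = q) : Polar μ (sphere (0 : E) 1) where
  θ := μ.toSphere
  finite := inferInstance
  Ψ u s := F (s • (u : E))
  j u s := ENNReal.ofReal (s ^ (Module.finrank ℝ E - 1) * |(fderiv ℝ F (s • (u : E))).det|)
  meas_Ψ := hF.continuous.measurable.comp
    (measurable_snd.smul (measurable_subtype_coe.comp measurable_fst))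
  meas_j := by
    have h3 : Measurable fun w : E => |(fderiv ℝ F w).det| :=
      (ContinuousLinearMap.continuous_det.comp (hF.continuous_fderiv (by simp))).abs.measurable
    exact ((measurable_snd.pow_const _).mul (h3.comp
      (measurable_snd.smul (measurable_subtype_coe.comp measurable_fst)))).ennreal_ofReal
  R := {F 0}ᶜ
  meas_R := (measurableSet_singleton _).compl
  range y hy := by
    have h3 : G y ≠ 0 := by
      intro h0
      apply hy
      rw [mem_singleton_iff, ← h0, h2]
    have h4 : 0 < ‖G y‖ := norm_pos_iff.2 h3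
    refine ⟨⟨(‖G y‖)⁻¹ • G y, ?_⟩, ‖G y‖, h4, ?_⟩
    · rw [mem_sphere_zero_iff_norm, norm_smul, norm_inv, norm_norm, inv_mul_cancel₀ h4.ne']
    · change F (‖G y‖ • (‖G y‖)⁻¹ • G y) = y
      rw [smul_smul, mul_inv_cancel₀ h4.ne', one_smul, h2]
  ρ y := ‖G y‖
  meas_ρ := hG.norm.measurable
  ρ_Ψ u s hs := by
    rw [h1, norm_smul, mem_sphere_zero_iff_norm.1 u.2, mul_one, Real.norm_eq_abs, abs_of_pos hs]
  lint H hH := by
    have h3 : ∫⁻ y in ({F 0}ᶜ : Set E), H y ∂μ = ∫⁻ y, H y ∂μ := by
      rw [restrict_compl_singleton]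
    have hinj : Function.Injective F := Function.LeftInverse.injective h1
    have hsurj : Function.Surjective F := Function.RightInverse.surjective h2
    have h4 := lintegral_image_eq_lintegral_abs_det_fderiv_mul μ (s := univ) (f := F)
      (f' := fun w => fderiv ℝ F w) MeasurableSet.univ
      (fun w _ => ((hF.differentiable (by simp)) w).hasFDerivAt.hasFDerivWithinAt)
      hinj.injOn H
    rw [image_univ, hsurj.range_eq, Measure.restrict_univ] at h4
    have h5 : Measurable fun w : E => |(fderiv ℝ F w).det| :=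
      (ContinuousLinearMap.continuous_det.comp (hF.continuous_fderiv (by simp))).abs.measurable
    have h6 : Measurable fun w : E => ENNReal.ofReal |(fderiv ℝ F w).det| * H (F w) :=
      h5.ennreal_ofReal.mul (hH.comp hF.continuous.measurable)
    rw [h3, h4, lintegral_polar μ h6]
    refine lintegral_congr fun u => ?_
    refine setLIntegral_congr_fun measurableSet_Ioi fun s hs => ?_
    have hs0 : 0 ≤ s ^ (Module.finrank ℝ E - 1) := pow_nonneg (le_of_lt hs) _
    rw [ENNReal.ofReal_mul hs0]
    ring

/-- the direction -/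
theorem exists_dir [Nontrivial E] (G : E → E) (hG : Continuous G) :
    ∃ dir : E → sphere (0 : E) 1, Measurable dir ∧
      ∀ y, G y ≠ 0 → ((dir y : sphere (0 : E) 1) : E) = (‖G y‖)⁻¹ • G y := by
  classical
  obtain ⟨v, hv⟩ := (NormedSpace.sphere_nonempty (x := (0 : E)) (r := 1)).2 zero_le_one
  have key : ∀ y, (if G y = 0 then v else (‖G y‖)⁻¹ • G y) ∈ sphere (0 : E) 1 := by
    intro y
    split_ifs with h
    · exact hv
    · have h4 : 0 < ‖G y‖ := norm_pos_iff.2 h
      rw [mem_sphere_zero_iff_norm, norm_smul, norm_inv, norm_norm, inv_mul_cancel₀ h4.ne']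
  refine ⟨fun y => ⟨_, key y⟩, Measurable.subtype_mk (Measurable.ite ?_ measurable_const ?_),
    fun y hy => if_neg hy⟩
  · exact hG.measurable (measurableSet_singleton 0)
  · exact (hG.measurable.norm.inv).smul hG.measurable

end Vale.Agent.P207.N3.H732
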